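import Vale.Agent.P273.H908.Per

/-! P273 / H908: the maximum principle on the sphere, abstract form. -/

namespace Vale.Agent.P273.H908

open Complex Set Filter Topology MeasureTheory
open scoped ContDiff Real

noncomputable section

/-- `M = |Re int (a + c x) dx / y|` is a single valued continuous function on the plane,
zero at the six branch points -/
structure Pot (b : Rd) (a c : ℂ) (M : ℂ → ℝ) : Prop where
  cont : Continuous M
  root : ∀ j, M (b j) = 0
  loc : ∀ x₀, (∀ j, x₀ ≠ b j) → ∃ Φ D : ℂ → ℂ, ∀ᶠ x in 𝓝 x₀, HasDerivAt Φ (D x) x ∧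
    M x = |(Φ x).re| ∧ ‖D x‖ = ‖a + c * x‖ / ‖sq b x‖

theorem Pot.nonneg {b : Rd} {a c : ℂ} {M : ℂ → ℝ} (hM : Pot b a c M) (x : ℂ) : 0 ≤ M x := by
  by_cases h : ∀ j, x ≠ b j
  · obtain ⟨Φ, D, hΦ⟩ := hM.loc x h
    rw [hΦ.self_of_nhds.2.1]; exact abs_nonneg _
  · push Not at h
    obtain ⟨j, rfl⟩ := h
    exact (hM.root j).ge

theorem norm_sq_ge {b : Rd} {x : ℂ} (hx : ∀ l, 2 * ‖b l‖ ≤ ‖x‖) :
    ‖x‖ ^ 3 / 8 ≤ ‖sq b x‖ := by
  have h1 : ‖sq b x‖ ^ 2 = ∏ l, ‖x - b l‖ := by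
    rw [← norm_pow, sq_sq, norm_prod]
  have h2 : (‖x‖ / 2) ^ 6 ≤ ∏ l : Fin 6, ‖x - b l‖ := by
    have : ∏ _l : Fin 6, (‖x‖ / 2) ≤ ∏ l : Fin 6, ‖x - b l‖ := by
      refine Finset.prod_le_prod (fun l _ => by positivity) fun l _ => ?_
      have := norm_sub_norm_le x (b l)
      linarith [hx l]
    simpa [div_pow] using this
  have h3 : (‖x‖ ^ 3 / 8) ^ 2 ≤ ‖sq b x‖ ^ 2 := by
    rw [h1]; refine le_trans (le_of_eq ?_) h2; ring
  exact (sq_le_sq₀ (by positivity) (norm_nonneg _)).1 h3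

/-- decay of the form at infinity -/
theorem form_decay {b : Rd} {a c x : ℂ} (hx : ∀ l, 2 * ‖b l‖ ≤ ‖x‖) (h1 : 1 ≤ ‖x‖) :
    ‖a + c * x‖ / ‖sq b x‖ ≤ 8 * (‖a‖ + ‖c‖) / ‖x‖ ^ 2 := by
  have h0 : 0 < ‖x‖ := lt_of_lt_of_le one_pos h1
  have h2 := norm_sq_ge hx
  have h3 : 0 < ‖sq b x‖ := lt_of_lt_of_le (by positivity) h2
  have h4 : ‖a + c * x‖ ≤ (‖a‖ + ‖c‖) * ‖x‖ := by
    refine (norm_add_le _ _).trans ?_
    rw [norm_mul]
    nlinarith [norm_nonneg a, norm_nonneg c]
  rw [div_le_div_iff₀ h3 (by positivity)]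
  calc ‖a + c * x‖ * ‖x‖ ^ 2 ≤ (‖a‖ + ‖c‖) * ‖x‖ * ‖x‖ ^ 2 := by gcongr
    _ = 8 * (‖a‖ + ‖c‖) * (‖x‖ ^ 3 / 8) := by ring
    _ ≤ 8 * (‖a‖ + ‖c‖) * ‖sq b x‖ := by gcongr

/-- the modulus of the potential grows by at most `C/R` along a ray -/
theorem Pot.ray {b : Rd} {a c : ℂ} {M : ℂ → ℝ} (hM : Pot b a c M) {R : ℝ} (hR : 1 ≤ R)
    (hbR : ∀ l, 2 * ‖b l‖ ≤ R) {u : ℂ} (hu : ‖u‖ = 1) {ρ : ℝ} (hρ : R ≤ ρ) :
    M (ρ * u) ≤ M (R * u) + (8 * (‖a‖ + ‖c‖) + 1) / R := by
  set C : ℝ := 8 * (‖a‖ + ‖c‖) with hC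
  have hC0 : 0 ≤ C := by positivity
  have hR0 : 0 < R := lt_of_lt_of_le one_pos hR
  have hn : ∀ s : ℝ, R ≤ s → ‖(s : ℂ) * u‖ = s := by
    intro s hs
    rw [norm_mul, hu, mul_one, Complex.norm_real, Real.norm_of_nonneg (hR0.le.trans hs)]
  have key := image_le_of_liminf_slope_right_lt_deriv_boundary'
    (f := fun s : ℝ => M (s * u)) (f' := fun s : ℝ => C / s ^ 2) (a := R) (b := ρ)
    (B := fun s : ℝ => M (R * u) + (C + 1) * (1 / R - 1 / s))
    (B' := fun s : ℝ => (C + 1) / s ^ 2) ?_ ?_ ?_ ?_ ?_ ?_ ⟨hρ, le_rfl⟩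
  · refine key.trans ?_
    have h1 : 0 < 1 / ρ := by have := hR0.trans_le hρ; positivity
    have : (C + 1) * (1 / R - 1 / ρ) ≤ (C + 1) / R := by
      have h2 := mul_nonneg (by positivity : 0 ≤ C + 1) h1.le
      have h3 : (C + 1) * (1 / R) = (C + 1) / R := by ring
      rw [mul_sub]
      linarith
    linarith
  · exact (hM.cont.comp (by fun_prop)).continuousOn
  · intro s hs r hr
    have hs0 : 0 < s := hR0.trans_le hs.1
    have hx : ∀ j, (s : ℂ) * u ≠ b j := by
      intro j hj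
      have h1 := hn s hs.1
      rw [hj] at h1
      have h2 := hbR j
      rw [h1] at h2
      linarith [hs.1]
    obtain ⟨Φ, D, hΦ⟩ := hM.loc _ hx
    have hD := hΦ.self_of_nhds
    have hDn : ‖D (s * u)‖ ≤ C / s ^ 2 := by
      rw [hD.2.2]
      have := form_decay (b := b) (a := a) (c := c) (x := s * u)
        (fun l => by rw [hn s hs.1]; exact (hbR l).trans hs.1)
        (by rw [hn s hs.1]; exact hR.trans hs.1)
      rwa [hn s hs.1] at this
    have h1 : HasDerivAt (fun z : ℝ => Φ (z * u)) (D (s * u) * u) s := by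
      have h2 : HasDerivAt (fun z : ℝ => (z : ℂ) * u) u s := by
        simpa using (Complex.ofRealCLM.hasDerivAt (x := s)).mul_const u
      exact hD.1.comp s h2
    have h3 : Tendsto (fun z => ‖slope (fun z : ℝ => Φ (z * u)) s z‖) (𝓝[>] s)
        (𝓝 ‖D (s * u) * u‖) :=
      ((hasDerivAt_iff_tendsto_slope.1 h1).mono_left
        (nhdsWithin_mono _ fun z hz => ne_of_gt hz)).norm
    have h4 : ‖D (s * u) * u‖ < r := by
      rw [norm_mul, hu, mul_one]; exact hDn.trans_lt hr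
    have h5 : ∀ᶠ z : ℝ in 𝓝[>] s, M (z * u) = |(Φ (z * u)).re| := by
      have : Tendsto (fun z : ℝ => (z : ℂ) * u) (𝓝[>] s) (𝓝 (s * u)) :=
        ((by fun_prop : Continuous fun z : ℝ => (z : ℂ) * u).tendsto s).mono_left
          nhdsWithin_le_nhds
      exact (this.eventually hΦ).mono fun z hz => hz.2.1
    refine Eventually.frequently ?_
    filter_upwards [h3.eventually_lt_const h4, h5, self_mem_nhdsWithin] with z hz1 hz2 hz3
    refine lt_of_le_of_lt ?_ hz1
    have hz3' : (0 : ℝ) < z - s := sub_pos.2 hz3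
    rw [slope_def_field, slope_def_module, norm_smul, norm_inv, Real.norm_of_nonneg hz3'.le,
      hz2, hD.2.1, div_eq_inv_mul]
    refine mul_le_mul_of_nonneg_left ?_ (by positivity)
    calc |(Φ (z * u)).re| - |(Φ (s * u)).re| ≤ |(Φ (z * u)).re - (Φ (s * u)).re| :=
          abs_sub_abs_le_abs_sub _ _
      _ = |(Φ (z * u) - Φ (s * u)).re| := by rw [sub_re]
      _ ≤ ‖Φ (z * u) - Φ (s * u)‖ := abs_re_le_norm _
  · simp
  · intro s hs
    have hs0 : s ≠ 0 := (hR0.trans_le hs.1).ne'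
    exact ContinuousAt.continuousWithinAt (by fun_prop (disch := assumption))
  · intro s hs
    have hs0 : s ≠ 0 := (hR0.trans_le hs.1).ne'
    have h1 : HasDerivAt (fun s : ℝ => 1 / s) (-1 / s ^ 2) s := by
      simpa [div_eq_mul_inv] using hasDerivAt_inv hs0
    have h2 := ((h1.const_sub (1 / R)).const_mul (C + 1)).const_add (M (R * u))
    refine (h2.congr_deriv ?_).hasDerivWithinAt
    ring
  · intro s hs _
    have hs0 : 0 < s := hR0.trans_le hs.1
    gcongr
    linarith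

/-- the modulus of the potential is bounded -/
theorem Pot.bdd {b : Rd} {a c : ℂ} {M : ℂ → ℝ} (hM : Pot b a c M) :
    ∃ B : ℝ, ∀ x, M x ≤ B := by
  set R : ℝ := 1 + 2 * ∑ l, ‖b l‖ with hR
  have hR1 : 1 ≤ R := by
    have : 0 ≤ ∑ l, ‖b l‖ := Finset.sum_nonneg fun l _ => norm_nonneg _
    linarith
  have hbR : ∀ l, 2 * ‖b l‖ ≤ R := by
    intro l
    have : ‖b l‖ ≤ ∑ l, ‖b l‖ :=
      Finset.single_le_sum (f := fun l => ‖b l‖) (fun l _ => norm_nonneg _) (Finset.mem_univ l)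
    linarith
  obtain ⟨B, hB⟩ := (isCompact_closedBall (0 : ℂ) R).exists_bound_of_continuousOn
    hM.cont.continuousOn
  refine ⟨B + (8 * (‖a‖ + ‖c‖) + 1) / R, fun x => ?_⟩
  have hpos : 0 ≤ (8 * (‖a‖ + ‖c‖) + 1) / R := by positivity
  by_cases hx : ‖x‖ ≤ R
  · have := hB x (by simpa using hx)
    have h2 := (le_abs_self _).trans this
    linarith
  · have hx' : R ≤ ‖x‖ := (not_le.1 hx).le
    have hx0 : 0 < ‖x‖ := by linarith
    have hx1 : (‖x‖ : ℂ) ≠ 0 := by exact_mod_cast hx0.ne'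
    have hu : ‖x / ‖x‖‖ = 1 := by
      rw [norm_div, Complex.norm_real, norm_norm, div_self hx0.ne']
    have h1 := hM.ray hR1 hbR hu hx'
    have h2 : (‖x‖ : ℂ) * (x / ‖x‖) = x := by field_simp
    rw [h2] at h1
    have h3 := hB (R * (x / ‖x‖)) (by
      rw [mem_closedBall_zero_iff, norm_mul, hu, mul_one, Complex.norm_real,
        Real.norm_of_nonneg (by linarith)])
    have h4 := (le_abs_self _).trans h3
    linarith

/-- **maximum principle**: the potential vanishes if all real half periods vanish -/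
theorem Pot.zero {b : Rd} {a c : ℂ} {M : ℂ → ℝ} (hM : Pot b a c M) (x : ℂ) :
    M x = 0 := by
  obtain ⟨B, hB⟩ := hM.bdd
  have hcont := hM.cont
  set p : ℂ := b 0 with hp
  -- main claim
  have claim : ∀ η > 0, ∀ r > 0, (∀ y, ‖y - p‖ ≤ r → M y < η) → ∀ ε > 0, ∀ y,
      r ≤ ‖y - p‖ → M y - ε * Real.log ‖y - p‖ ≤ η - ε * Real.log r := by
    intro η hη r hr hsm ε hε y₁ hy₁
    by_contra hcon
    push Not at hcon
    set Ψ : ℂ → ℝ := fun y => M y - ε * Real.log ‖y - p‖ with hΨ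
    -- outside a large disc the function is small
    obtain ⟨R, hR⟩ : ∃ R : ℝ, ∀ t : ℝ, R ≤ t → B - ε * Real.log t < η - ε * Real.log r := by
      have h1 : Tendsto (fun t : ℝ => ε * Real.log t) atTop atTop :=
        Real.tendsto_log_atTop.const_mul_atTop hε
      obtain ⟨R, hR⟩ := (h1.eventually_gt_atTop (B - (η - ε * Real.log r))).exists_forall_of_atTop
      exact ⟨R, fun t ht => by linarith [hR t ht]⟩
    set K : Set ℂ := {y | r ≤ ‖y - p‖ ∧ ‖y - p‖ ≤ R} with hK
    have hKc : IsCompact K := by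
      have h1 : K = Metric.closedBall p R ∩ {y | r ≤ ‖y - p‖} := by
        ext y; simp [hK, dist_eq_norm, and_comm]
      rw [h1]
      exact (isCompact_closedBall p R).inter_right
        (isClosed_le continuous_const (by fun_prop : Continuous fun y : ℂ => ‖y - p‖))
    have hΨc : ContinuousOn Ψ K := by
      refine hcont.continuousOn.sub (continuousOn_const.mul (ContinuousOn.log (by fun_prop) ?_))
      intro y hy
      exact (hr.trans_le hy.1).ne'
    have hy₁K : y₁ ∈ K := by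
      refine ⟨hy₁, ?_⟩
      by_contra h
      have h1 := hR ‖y₁ - p‖ (not_le.1 h).le
      have h2 := hB y₁
      linarith
    obtain ⟨y₂, hy₂K, hy₂⟩ := hKc.exists_isMaxOn ⟨y₁, hy₁K⟩ hΨc
    have hm : η - ε * Real.log r < Ψ y₂ := hcon.trans_le (hy₂ hy₁K)
    -- global maximum on the exterior
    have hglob : ∀ y, r ≤ ‖y - p‖ → Ψ y ≤ Ψ y₂ := by
      intro y hy
      by_cases h : ‖y - p‖ ≤ R
      · exact hy₂ ⟨hy, h⟩
      · have h1 := hR ‖y - p‖ (not_le.1 h).le
        have h2 := hB y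
        show M y - ε * Real.log ‖y - p‖ ≤ _
        linarith
    -- maximum point closest to p
    set L : Set ℂ := {y | y ∈ K ∧ Ψ y = Ψ y₂} with hL
    have hLc : IsCompact L := by
      have h1 : L = K ∩ Ψ ⁻¹' {Ψ y₂} := by ext; simp [hL]
      rw [h1]
      exact hKc.of_isClosed_subset (hΨc.preimage_isClosed_of_isClosed hKc.isClosed
        isClosed_singleton) inter_subset_left
    obtain ⟨y₃, hy₃L, hy₃⟩ := hLc.exists_isMinOn ⟨y₂, hy₂K, rfl⟩
      (f := fun y => ‖y - p‖) (by fun_prop)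
    have h3r : r < ‖y₃ - p‖ := by
      refine lt_of_le_of_ne hy₃L.1.1 fun h => ?_
      have h1 := hsm y₃ h.symm.le
      have h2 : Ψ y₃ = M y₃ - ε * Real.log r := by rw [hΨ]; simp only; rw [← h]
      have h4 := hy₃L.2
      rw [h2] at h4
      linarith
    have h3p : y₃ - p ≠ 0 := by
      intro h; rw [h, norm_zero] at h3r; linarith
    have hext : ∀ᶠ y in 𝓝 y₃, r ≤ ‖y - p‖ :=
      (((by fun_prop : Continuous fun y : ℂ => ‖y - p‖).tendsto y₃).eventually_const_lt
        h3r).mono fun y hy => le_of_lt hy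
    -- points close to y₃ and closer to p
    have hcloser : ∀ P : ℂ → Prop, (∀ᶠ y in 𝓝 y₃, P y) → ∃ y, P y ∧ ‖y - p‖ < ‖y₃ - p‖ ∧
        r ≤ ‖y - p‖ := by
      intro P hPy
      have h1 : Tendsto (fun t : ℝ => p + (t : ℂ) * (y₃ - p)) (𝓝[<] 1) (𝓝 y₃) := by
        have h2 : Tendsto (fun t : ℝ => p + (t : ℂ) * (y₃ - p)) (𝓝 1)
            (𝓝 (p + ((1 : ℝ) : ℂ) * (y₃ - p))) :=
          (by fun_prop : Continuous fun t : ℝ => p + (t : ℂ) * (y₃ - p)).tendsto 1
        have h3 : p + ((1 : ℝ) : ℂ) * (y₃ - p) = y₃ := by push_cast; ring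
        rw [h3] at h2
        exact h2.mono_left nhdsWithin_le_nhds
      have h2 : ∀ᶠ t : ℝ in 𝓝[<] 1, 0 < t :=
        (lt_mem_nhds one_pos).filter_mono nhdsWithin_le_nhds
      obtain ⟨t, ⟨ht1, ht2⟩, ht3, ht4⟩ := ((h1.eventually (hPy.and hext)).and
        (h2.and self_mem_nhdsWithin)).exists
      refine ⟨_, ht1, ?_, ht2⟩
      have h5 : p + (t : ℂ) * (y₃ - p) - p = (t : ℂ) * (y₃ - p) := by ring
      rw [h5, norm_mul, Complex.norm_real, Real.norm_of_nonneg ht3.le]
      have h6 : 0 < ‖y₃ - p‖ := norm_pos_iff.2 h3p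
      have h7 : t < 1 := ht4
      nlinarith
    by_cases hroot : ∀ j, y₃ ≠ b j
    · obtain ⟨Φ, D, hΦ⟩ := hM.loc _ hroot
      obtain ⟨σ, hσ, hσ'⟩ : ∃ σ : ℝ, (σ = 1 ∨ σ = -1) ∧ |(Φ y₃).re| = σ * (Φ y₃).re := by
        rcases abs_choice (Φ y₃).re with h | h
        · exact ⟨1, Or.inl rfl, by rw [h]; ring⟩
        · exact ⟨-1, Or.inr rfl, by rw [h]; ring⟩
      have hσle : ∀ z : ℂ, σ * z.re ≤ |z.re| := by
        intro z
        rcases hσ with h | h
        · rw [h, one_mul]; exact le_abs_self _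
        · rw [h, neg_one_mul]; exact neg_le_abs _
      set f : ℂ → ℂ := fun y => exp (σ * Φ y - ε * log ((y - p) / (y₃ - p))) with hf
      have hsp : ∀ᶠ y in 𝓝 y₃, (y - p) / (y₃ - p) ∈ slitPlane := by
        have h1 : ContinuousAt (fun y : ℂ => (y - p) / (y₃ - p)) y₃ := by fun_prop
        apply h1.eventually (isOpen_slitPlane.eventually_mem _)
        show (y₃ - p) / (y₃ - p) ∈ slitPlane
        rw [div_self h3p]; exact one_mem_slitPlane
      have hfd : ∀ᶠ y in 𝓝 y₃, DifferentiableAt ℂ f y := by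
        filter_upwards [hΦ, hsp] with y hy1 hy2
        have h1 : DifferentiableAt ℂ (fun y : ℂ => (y - p) / (y₃ - p)) y := by fun_prop
        exact ((hy1.1.differentiableAt.const_mul (σ : ℂ)).sub ((h1.clog hy2).const_mul _)).cexp
      have hfn : ∀ᶠ y in 𝓝 y₃, ‖f y‖ = Real.exp (σ * (Φ y).re - ε * Real.log ‖y - p‖
          + ε * Real.log ‖y₃ - p‖) := by
        filter_upwards [hext] with y hy
        have h0 : 0 < ‖y - p‖ := hr.trans_le hy
        have h1 : 0 < ‖y₃ - p‖ := norm_pos_iff.2 h3p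
        rw [hf, norm_exp]
        congr 1
        rw [sub_re, re_ofReal_mul, re_ofReal_mul, log_re, norm_div,
          Real.log_div h0.ne' h1.ne']
        ring
      have hmax : IsLocalMax (norm ∘ f) y₃ := by
        filter_upwards [hfn, hΦ, hext] with y hy1 hy2 hy3
        show ‖f y‖ ≤ ‖f y₃‖
        rw [hy1, hfn.self_of_nhds]
        apply Real.exp_le_exp.2
        have h1 := hglob y hy3
        rw [← hy₃L.2] at h1
        have h2 : Ψ y = |(Φ y).re| - ε * Real.log ‖y - p‖ := by rw [hΨ]; simp only; rw [hy2.2.1]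
        have h3 : Ψ y₃ = σ * (Φ y₃).re - ε * Real.log ‖y₃ - p‖ := by
          rw [hΨ]; simp only; rw [hΦ.self_of_nhds.2.1, hσ']
        rw [h2, h3] at h1
        have h4 := hσle (Φ y)
        linarith
      have hconst := Complex.eventually_eq_of_isLocalMax_norm hfd hmax
      obtain ⟨y, ⟨hy1, hy2, hy3⟩, hy4, hy5⟩ := hcloser _ (hconst.and (hfn.and hΦ))
      have h1 : ‖f y‖ = ‖f y₃‖ := by rw [hy1]
      rw [hy2, hfn.self_of_nhds, Real.exp_eq_exp] at h1
      have h2 : Ψ y = |(Φ y).re| - ε * Real.log ‖y - p‖ := by rw [hΨ]; simp only; rw [hy3.2.1]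
      have h3 : Ψ y₃ = σ * (Φ y₃).re - ε * Real.log ‖y₃ - p‖ := by
        rw [hΨ]; simp only; rw [hΦ.self_of_nhds.2.1, hσ']
      have h4 := hσle (Φ y)
      have h5 : Ψ y₃ ≤ Ψ y := by rw [h2, h3]; linarith
      have h6 : Ψ y = Ψ y₂ := le_antisymm (hglob y hy5) (by rw [← hy₃L.2]; exact h5)
      have h7 : y ∈ L := ⟨⟨hy5, hy4.le.trans hy₃L.1.2⟩, h6⟩
      exact absurd (hy₃ h7) (not_le.2 hy4)
    · push Not at hroot
      obtain ⟨j, hj⟩ := hroot
      obtain ⟨y, -, hy4, hy5⟩ := hcloser (fun _ => True) (Eventually.of_forall fun _ => trivial)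
      have h1 := hglob y hy5
      rw [← hy₃L.2] at h1
      have h2 : Ψ y₃ = - ε * Real.log ‖y₃ - p‖ := by
        rw [hΨ]; simp only; rw [hj, hM.root]; ring
      have h3 : Ψ y ≥ - ε * Real.log ‖y - p‖ := by
        rw [hΨ]; simp only; have := hM.nonneg y; linarith
      have h4 : Real.log ‖y - p‖ < Real.log ‖y₃ - p‖ :=
        Real.log_lt_log (hr.trans_le hy5) hy4
      have h5 : ε * Real.log ‖y - p‖ < ε * Real.log ‖y₃ - p‖ := mul_lt_mul_of_pos_left h4 hε
      linarith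
  -- conclusion
  have hle : ∀ η > 0, M x ≤ η := by
    intro η hη
    have h0 : M p = 0 := hM.root 0
    have h1 : ∀ᶠ y in 𝓝 p, M y < η := by
      apply hcont.continuousAt.eventually_lt_const
      rw [h0]; exact hη
    obtain ⟨r, hr, hrs⟩ := Metric.eventually_nhds_iff.1 h1
    have hsm : ∀ y, ‖y - p‖ ≤ r / 2 → M y < η := fun y hy =>
      hrs (by rw [dist_eq_norm]; linarith)
    by_cases hx : ‖x - p‖ ≤ r / 2
    · exact (hsm x hx).le
    · have hx' := (not_le.1 hx).le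
      have h2 : Tendsto (fun ε : ℝ => M x - ε * Real.log ‖x - p‖) (𝓝[>] 0)
          (𝓝 (M x - 0 * Real.log ‖x - p‖)) :=
        ((by fun_prop : Continuous fun ε : ℝ => M x - ε * Real.log ‖x - p‖).tendsto
          0).mono_left nhdsWithin_le_nhds
      have h3 : Tendsto (fun ε : ℝ => η - ε * Real.log (r / 2)) (𝓝[>] 0)
          (𝓝 (η - 0 * Real.log (r / 2))) :=
        ((by fun_prop : Continuous fun ε : ℝ => η - ε * Real.log (r / 2)).tendsto
          0).mono_left nhdsWithin_le_nhds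
      have h4 := le_of_tendsto_of_tendsto h2 h3 (by
        filter_upwards [self_mem_nhdsWithin] with ε hε
        exact claim η hη (r / 2) (by linarith) hsm ε hε x hx')
      simpa using h4
  exact le_antisymm (le_of_forall_pos_le_add fun η hη => by simpa using hle η hη)
    (hM.nonneg x)

/-- **maximum principle on the sphere, abstract form**: no nonzero form has a single valued
continuous modulus of the real part of its primitive, zero at the branch points -/
theorem Pot.nondeg {b : Rd} {a c : ℂ} {M : ℂ → ℝ} (hM : Pot b a c M) : a = 0 ∧ c = 0 := by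
  have hval : ∀ x : ℂ, (∀ j, x ≠ b j) → a + c * x = 0 := by
    intro x hx
    obtain ⟨Φ, D, hΦ⟩ := hM.loc _ hx
    have h1 : ∀ᶠ y in 𝓝 x, (Φ y).re = 0 := by
      filter_upwards [hΦ] with y hy
      have := hy.2.1
      rw [hM.zero] at this
      exact abs_eq_zero.1 this.symm
    have h2 : D x = 0 := by
      have hd := hΦ.self_of_nhds.1
      have hr : ∀ v : ℂ, (D x * v).re = 0 := by
        intro v
        have h3 : HasDerivAt (fun t : ℝ => Φ (x + t * v)) (D x * v) 0 := by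
          have h4 : HasDerivAt (fun t : ℝ => x + (t : ℂ) * v) v 0 := by
            simpa using ((Complex.ofRealCLM.hasDerivAt (x := (0 : ℝ))).mul_const v).const_add x
          have h5 : HasDerivAt Φ (D x) (x + ((0 : ℝ) : ℂ) * v) := by simpa using hd
          exact h5.comp 0 h4
        have h6 : HasDerivAt (fun t : ℝ => (Φ (x + t * v)).re) (D x * v).re 0 :=
          (Complex.reCLM.hasFDerivAt.comp_hasDerivAt (0 : ℝ) h3)
        have h7 : ∀ᶠ t : ℝ in 𝓝 0, (Φ (x + t * v)).re = 0 := by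
          have h8 : Tendsto (fun t : ℝ => x + (t : ℂ) * v) (𝓝 0) (𝓝 x) := by
            have := (by fun_prop : Continuous fun t : ℝ => x + (t : ℂ) * v).tendsto 0
            simpa using this
          exact h8.eventually h1
        have h9 : HasDerivAt (fun t : ℝ => (Φ (x + t * v)).re) 0 0 :=
          (hasDerivAt_const (0 : ℝ) (0 : ℝ)).congr_of_eventuallyEq (h7.mono fun t ht => ht)
        exact h6.unique h9
      have e1 := hr 1
      have e2 := hr I
      apply Complex.ext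
      · simpa using e1
      · simpa using e2
    have h3 := hΦ.self_of_nhds.2.2
    rw [h2, norm_zero, eq_comm, div_eq_zero_iff] at h3
    rcases h3 with h3 | h3
    · exact norm_eq_zero.1 h3
    · exfalso
      have h4 : sq b x = 0 := norm_eq_zero.1 h3
      rw [sq, Finset.prod_eq_zero_iff] at h4
      obtain ⟨l, -, hl⟩ := h4
      exact rt_ne_zero (sub_ne_zero.2 (hx l)) hl
  -- two different points
  have hc : c = 0 := by
    set t : ℝ := ∑ l, ‖b l‖ with ht
    have hbl : ∀ l, ‖b l‖ ≤ t := fun l =>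
      Finset.single_le_sum (f := fun l => ‖b l‖) (fun l _ => norm_nonneg _) (Finset.mem_univ l)
    have ht0 : 0 ≤ t := Finset.sum_nonneg fun l _ => norm_nonneg _
    have hne : ∀ s : ℝ, t < s → ∀ j, ((s : ℝ) : ℂ) ≠ b j := by
      intro s hs j h
      have h1 := hbl j
      rw [← h, Complex.norm_real, Real.norm_of_nonneg (ht0.trans hs.le)] at h1
      linarith
    have e1 := hval ((t + 1 : ℝ) : ℂ) (hne _ (by linarith))
    have e2 := hval ((t + 2 : ℝ) : ℂ) (hne _ (by linarith))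
    push_cast at e1 e2
    linear_combination e2 - e1
  refine ⟨?_, hc⟩
  set t : ℝ := ∑ l, ‖b l‖ with ht
  have hbl : ∀ l, ‖b l‖ ≤ t := fun l =>
    Finset.single_le_sum (f := fun l => ‖b l‖) (fun l _ => norm_nonneg _) (Finset.mem_univ l)
  have ht0 : 0 ≤ t := Finset.sum_nonneg fun l _ => norm_nonneg _
  have e1 := hval ((t + 1 : ℝ) : ℂ) (by
    intro j h
    have h1 := hbl j
    rw [← h, Complex.norm_real, Real.norm_of_nonneg (by linarith)] at h1
    linarith)
  rw [hc] at e1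
  simpa using e1

end

end Vale.Agent.P273.H908
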