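import Vale.Agent.P273.H908.Max
import Vale.Agent.P273.H908.Inv

/-! P273 / H908: non-degeneracy at every configuration (real parts may agree), for primitives along
graph paths with admissible sets of roots passed from below. -/

namespace Vale.Agent.P273.H908

open Complex Set Filter Topology
open scoped ContDiff Real

noncomputable section

/-- The set `A` of roots which are passed from below is admissible for paths which start at `x`
and run to the right. -/
def Dom (A : Finset (Fin 6)) (b : Rd) (x : ℂ) : Prop :=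
  (∀ l, (b l).re = x.re → (l ∈ A → x.im < (b l).im) ∧ (l ∉ A → (b l).im < x.im)) ∧
  (∀ l ∈ A, ∀ l' ∉ A, x.re < (b l).re → (b l).re = (b l').re → (b l').im < (b l).im)

/-- admissible sets for paths that start at the root `j` -/
def RDom (A : Finset (Fin 6)) (b : Rd) (j : Fin 6) : Prop :=
  j ∉ A ∧
  (∀ l, l ≠ j → (b l).re = (b j).re → (l ∈ A → (b j).im < (b l).im) ∧
    (l ∉ A → (b l).im < (b j).im)) ∧
  (∀ l ∈ A, ∀ l' ∉ A, (b j).re < (b l).re → (b l).re = (b l').re → (b l').im < (b l).im)

/-- the side of `z` from which the root cut downwards is continuous -/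
def side (z : ℂ) : Set ℂ := {x | x.re ≠ z.re ∨ z.im < x.im}

/-- Primitives of `(a + c x) / y` along graph paths: `F A` is the primitive with value `0` at
infinity, `v A j` its value at the root `j`. -/
structure GPc (b : Rd) (a c : ℂ) (F : Finset (Fin 6) → ℂ → ℂ) (v : Finset (Fin 6) → Fin 6 → ℂ) :
    Prop where
  deriv : ∀ A x, Dom A b x → ∃ s : ℂ, ‖s‖ = ‖sq b x‖ ∧ HasDerivAt (F A) ((a + c * x) / s) x
  flipR : ∀ A m x, m ∉ A → Dom A b x → Dom (insert m A) b x → (b m).re < x.re →
    F (insert m A) x = F A x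
  flipL : ∀ A m x, m ∉ A → Dom A b x → Dom (insert m A) b x → x.re < (b m).re →
    F (insert m A) x + F A x = 2 * v A m
  root : ∀ A j, RDom A b j → Tendsto (F A) (𝓝[side (b j)] (b j)) (𝓝 (v A j))

variable {b : Rd} {a c : ℂ} {F : Finset (Fin 6) → ℂ → ℂ} {v : Finset (Fin 6) → Fin 6 → ℂ}

/-- the roots on the vertical of `x` above `x` -/
def R0 (b : Rd) (x : ℂ) : Finset (Fin 6) :=
  Finset.univ.filter fun l => (b l).re = x.re ∧ x.im < (b l).im

theorem mem_R0 {x : ℂ} {l : Fin 6} : l ∈ R0 b x ↔ (b l).re = x.re ∧ x.im < (b l).im := by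
  simp [R0]

theorem Dom.ne {A : Finset (Fin 6)} {x : ℂ} (h : Dom A b x) (j : Fin 6) : x ≠ b j := by
  rintro rfl
  by_cases hj : j ∈ A
  · exact lt_irrefl _ ((h.1 j rfl).1 hj)
  · exact lt_irrefl _ ((h.1 j rfl).2 hj)

theorem Dom_R0 {x : ℂ} (hx : ∀ j, x ≠ b j) : Dom (R0 b x) b x := by
  refine ⟨fun l hl => ⟨fun h => (mem_R0.1 h).2, fun h => ?_⟩, fun l hl l' _ h _ => ?_⟩
  · have h1 : (b l).im ≤ x.im := by
      by_contra h2
      exact h (mem_R0.2 ⟨hl, not_le.1 h2⟩)
    refine lt_of_le_of_ne h1 fun h2 => hx l (Complex.ext hl.symm h2.symm)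
  · exact absurd (mem_R0.1 hl).1 h.ne'

theorem RDom_R0 (hinj : Function.Injective b) (j : Fin 6) : RDom (R0 b (b j)) b j := by
  refine ⟨fun h => lt_irrefl _ (mem_R0.1 h).2, fun l hlj hl => ⟨fun h => (mem_R0.1 h).2,
    fun h => ?_⟩, fun l hl l' _ h _ => absurd (mem_R0.1 hl).1 h.ne'⟩
  have h1 : (b l).im ≤ (b j).im := by
    by_contra h2
    exact h (mem_R0.2 ⟨hl, not_le.1 h2⟩)
  exact lt_of_le_of_ne h1 fun h2 => hlj (hinj (Complex.ext hl h2))

theorem R0_subset {A : Finset (Fin 6)} {x : ℂ} (h : Dom A b x) : R0 b x ⊆ A := by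
  intro l hl
  by_contra h1
  have h2 := mem_R0.1 hl
  exact lt_asymm h2.2 ((h.1 l h2.1).2 h1)

/-- the real part does not depend on the admissible set, up to the sign -/
theorem GPc.indep0 (H : GPc b a c F v) (hinj : Function.Injective b) {x : ℂ}
    (hv : ∀ B m, x.re < (b m).re → RDom B b m → (v B m).re = 0) :
    ∀ (n : ℕ) (A : Finset (Fin 6)), A.card = n → Dom A b x →
      |(F A x).re| = |(F (R0 b x) x).re| := by
  intro n
  induction n with
  | zero =>
    intro A hA hD
    have h1 : A = ∅ := Finset.card_eq_zero.1 hA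
    have h2 : R0 b x = ∅ := by
      have := R0_subset hD
      rw [h1] at this
      exact Finset.subset_empty.1 this
    rw [h1, h2]
  | succ n ih =>
    intro A hA hD
    by_cases hleft : ∃ m ∈ A, (b m).re < x.re
    · obtain ⟨m, hm, hlt⟩ := hleft
      have hD' : Dom (A.erase m) b x := by
        refine ⟨fun l hl => ⟨fun h => (hD.1 l hl).1 (Finset.mem_of_mem_erase h), fun h => ?_⟩,
          fun l hl l' hl' h1 h2 => ?_⟩
        · have hlm : l ≠ m := by rintro rfl; exact absurd hl hlt.ne
          exact (hD.1 l hl).2 fun h' => h (Finset.mem_erase.2 ⟨hlm, h'⟩)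
        · have hlm : l' ≠ m := by
            rintro rfl
            rw [← h2] at hlt
            exact lt_asymm hlt h1
          exact hD.2 l (Finset.mem_of_mem_erase hl) l'
            (fun h' => hl' (Finset.mem_erase.2 ⟨hlm, h'⟩)) h1 h2
      have h3 := H.flipR (A.erase m) m x (Finset.notMem_erase m A) hD'
        (by rw [Finset.insert_erase hm]; exact hD) hlt
      rw [Finset.insert_erase hm] at h3
      rw [h3]
      exact ih _ (by rw [Finset.card_erase_of_mem hm, hA]; rfl) hD'
    · by_cases hright : ∃ m ∈ A, x.re < (b m).re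
      · obtain ⟨m, hm, hmin⟩ := Finset.exists_min_image (A.filter fun m => x.re < (b m).re)
          (fun m => (b m).im) (by
            obtain ⟨m, hm, h⟩ := hright
            exact ⟨m, Finset.mem_filter.2 ⟨hm, h⟩⟩)
        have hmA := (Finset.mem_filter.1 hm).1
        have hlt := (Finset.mem_filter.1 hm).2
        have hlow : ∀ l ∈ A, l ≠ m → (b l).re = (b m).re → (b m).im < (b l).im := by
          intro l hl hlm h
          refine lt_of_le_of_ne (hmin l (Finset.mem_filter.2 ⟨hl, by rw [h]; exact hlt⟩))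
            fun h' => hlm (hinj (Complex.ext h h'.symm))
        have hD' : Dom (A.erase m) b x := by
          refine ⟨fun l hl => ⟨fun h => (hD.1 l hl).1 (Finset.mem_of_mem_erase h), fun h => ?_⟩,
            fun l hl l' hl' h1 h2 => ?_⟩
          · have hlm : l ≠ m := by rintro rfl; exact absurd hl hlt.ne'
            exact (hD.1 l hl).2 fun h' => h (Finset.mem_erase.2 ⟨hlm, h'⟩)
          · by_cases hlm : l' = m
            · subst hlm
              exact hlow l (Finset.mem_of_mem_erase hl) (Finset.ne_of_mem_erase hl) h2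
            · exact hD.2 l (Finset.mem_of_mem_erase hl) l'
                (fun h' => hl' (Finset.mem_erase.2 ⟨hlm, h'⟩)) h1 h2
        have hR : RDom (A.erase m) b m := by
          refine ⟨Finset.notMem_erase m A, fun l hlm hl => ⟨fun h =>
            hlow l (Finset.mem_of_mem_erase h) hlm hl, fun h => ?_⟩, fun l hl l' hl' h1 h2 => ?_⟩
          · have hlA : l ∉ A := fun h' => h (Finset.mem_erase.2 ⟨hlm, h'⟩)
            exact hD.2 m hmA l hlA hlt hl.symm
          · have hlm : l' ≠ m := by
              rintro rfl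
              exact absurd h2 h1.ne'
            exact hD.2 l (Finset.mem_of_mem_erase hl) l'
              (fun h' => hl' (Finset.mem_erase.2 ⟨hlm, h'⟩)) (hlt.trans h1) h2
        have h3 := H.flipL (A.erase m) m x (Finset.notMem_erase m A) hD'
          (by rw [Finset.insert_erase hmA]; exact hD) hlt
        rw [Finset.insert_erase hmA] at h3
        have h4 : (F A x).re = -(F (A.erase m) x).re := by
          have := congrArg Complex.re h3
          have h5 := hv _ m hlt hR
          simp only [add_re, mul_re, re_ofNat, im_ofNat, zero_mul, sub_zero] at this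
          linarith
        rw [h4, abs_neg]
        exact ih _ (by rw [Finset.card_erase_of_mem hmA, hA]; rfl) hD'
      · have h1 : A = R0 b x := by
          refine Finset.Subset.antisymm (fun l hl => ?_) (R0_subset hD)
          have h2 : (b l).re = x.re := by
            refine le_antisymm (not_lt.1 fun h => hright ⟨l, hl, h⟩)
              (not_lt.1 fun h => hleft ⟨l, hl, h⟩)
          exact mem_R0.2 ⟨h2, (hD.1 l h2).1 hl⟩
        rw [← h1]

theorem GPc.indep (H : GPc b a c F v) (hinj : Function.Injective b) {x : ℂ}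
    (hv : ∀ B m, x.re < (b m).re → RDom B b m → (v B m).re = 0) {A A' : Finset (Fin 6)}
    (h : Dom A b x) (h' : Dom A' b x) : |(F A x).re| = |(F A' x).re| := by
  rw [H.indep0 hinj hv _ A rfl h, H.indep0 hinj hv _ A' rfl h']

/-- near a point, the roots which are not on its vertical stay on their side -/
theorem eventually_sides (b : Rd) (x₀ : ℂ) : ∀ᶠ x in 𝓝 x₀, ∀ l,
    ((b l).re < x₀.re → (b l).re < x.re) ∧ (x₀.re < (b l).re → x.re < (b l).re) ∧
    ((b l).im < x₀.im → (b l).im < x.im) ∧ (x₀.im < (b l).im → x.im < (b l).im) := by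
  rw [eventually_all]
  intro l
  have h1 : ∀ᶠ x in 𝓝 x₀, (b l).re < x₀.re → (b l).re < x.re := by
    by_cases h : (b l).re < x₀.re
    · filter_upwards [continuous_re.continuousAt.eventually (lt_mem_nhds h)] with x hx _ using hx
    · exact Eventually.of_forall fun x h' => absurd h' h
  have h2 : ∀ᶠ x in 𝓝 x₀, x₀.re < (b l).re → x.re < (b l).re := by
    by_cases h : x₀.re < (b l).re
    · filter_upwards [continuous_re.continuousAt.eventually (gt_mem_nhds h)] with x hx _ using hx
    · exact Eventually.of_forall fun x h' => absurd h' h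
  have h3 : ∀ᶠ x in 𝓝 x₀, (b l).im < x₀.im → (b l).im < x.im := by
    by_cases h : (b l).im < x₀.im
    · filter_upwards [continuous_im.continuousAt.eventually (lt_mem_nhds h)] with x hx _ using hx
    · exact Eventually.of_forall fun x h' => absurd h' h
  have h4 : ∀ᶠ x in 𝓝 x₀, x₀.im < (b l).im → x.im < (b l).im := by
    by_cases h : x₀.im < (b l).im
    · filter_upwards [continuous_im.continuousAt.eventually (gt_mem_nhds h)] with x hx _ using hx
    · exact Eventually.of_forall fun x h' => absurd h' h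
  filter_upwards [h1, h2, h3, h4] with x k1 k2 k3 k4 using ⟨k1, k2, k3, k4⟩

/-- admissibility is an open condition -/
theorem eventually_Dom {A : Finset (Fin 6)} {x₀ : ℂ} (h : Dom A b x₀) :
    ∀ᶠ x in 𝓝 x₀, Dom A b x := by
  filter_upwards [eventually_sides b x₀] with x hx
  refine ⟨fun l hl => ?_, fun l hl l' hl' h1 h2 => ?_⟩
  · have hl0 : (b l).re = x₀.re := by
      rcases lt_trichotomy (b l).re x₀.re with h' | h' | h'
      · exact absurd hl ((hx l).1 h').ne
      · exact h'
      · exact absurd hl ((hx l).2.1 h').ne'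
    exact ⟨fun hA => (hx l).2.2.2 ((h.1 l hl0).1 hA), fun hA => (hx l).2.2.1 ((h.1 l hl0).2 hA)⟩
  · rcases lt_trichotomy (b l).re x₀.re with h' | h' | h'
    · exact absurd ((hx l).1 h') (lt_asymm h1)
    · exact ((h.1 l' (h2 ▸ h')).2 hl').trans ((h.1 l h').1 hl)
    · exact h.2 l hl l' hl' h' h2

/-- near a root the same set is admissible on the side of the root -/
theorem eventually_Dom_root {A : Finset (Fin 6)} {j : Fin 6} (h : RDom A b j) :
    ∀ᶠ x in 𝓝[side (b j)] (b j), Dom A b x := by
  have h0 := eventually_sides b (b j)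
  filter_upwards [h0.filter_mono nhdsWithin_le_nhds, self_mem_nhdsWithin] with x hx hside
  refine ⟨fun l hl => ?_, fun l hl l' hl' h1 h2 => ?_⟩
  · have hl0 : (b l).re = (b j).re := by
      rcases lt_trichotomy (b l).re (b j).re with h' | h' | h'
      · exact absurd hl ((hx l).1 h').ne
      · exact h'
      · exact absurd hl ((hx l).2.1 h').ne'
    have him : (b j).im < x.im := by
      rcases hside with h' | h'
      · exact absurd (hl.symm.trans hl0) h'
      · exact h'
    by_cases hlj : l = j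
    · subst hlj
      exact ⟨fun hA => absurd hA h.1, fun _ => him⟩
    · exact ⟨fun hA => (hx l).2.2.2 ((h.2.1 l hlj hl0).1 hA),
        fun hA => ((h.2.1 l hlj hl0).2 hA).trans him⟩
  · rcases lt_trichotomy (b l).re (b j).re with h' | h' | h'
    · exact absurd ((hx l).1 h') (lt_asymm h1)
    · have hlj : l ≠ j := fun e => h.1 (e ▸ hl)
      have k1 := (h.2.1 l hlj h').1 hl
      by_cases hlj' : l' = j
      · subst hlj'; exact k1
      · exact ((h.2.1 l' hlj' (h2 ▸ h')).2 hl').trans k1
    · exact h.2.2 l hl l' hl' h' h2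

theorem root_closure (z : ℂ) : (𝓝[side z] z).NeBot := by
  rw [← mem_closure_iff_nhdsWithin_neBot]
  rw [Metric.mem_closure_iff]
  intro ε hε
  refine ⟨z + (ε / 2 : ℝ), Or.inl ?_, ?_⟩
  · simp; linarith
  · rw [dist_eq_norm, sub_add_cancel_left, norm_neg, Complex.norm_real, Real.norm_eq_abs,
      abs_of_pos (by linarith)]
    linarith

/-- the vertical above `z` -/
def up (z : ℂ) : Set ℂ := {x | x.re = z.re ∧ z.im < x.im}

theorem up_closure (z : ℂ) : (𝓝[up z] z).NeBot := by
  rw [← mem_closure_iff_nhdsWithin_neBot]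
  rw [Metric.mem_closure_iff]
  intro ε hε
  refine ⟨z + (ε / 2 : ℝ) * I, ⟨by simp, by simp; linarith⟩, ?_⟩
  rw [dist_eq_norm, sub_add_cancel_left, norm_neg, norm_mul, Complex.norm_real, norm_I, mul_one,
    Real.norm_eq_abs, abs_of_pos (by linarith)]
  linarith

/-- real parts of the values at the roots: from one admissible choice to all -/
theorem GPc.root_zero (H : GPc b a c F v) (hinj : Function.Injective b)
    {A₀ : Fin 6 → Finset (Fin 6)} (hA₀ : ∀ j, RDom (A₀ j) b j) (h0 : ∀ j, (v (A₀ j) j).re = 0) :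
    ∀ (A : Finset (Fin 6)) (j : Fin 6), RDom A b j → (v A j).re = 0 := by
  have key : ∀ (n : ℕ) (A : Finset (Fin 6)) (j : Fin 6),
      (Finset.univ.filter fun l => (b j).re < (b l).re).card = n → RDom A b j →
      (v A j).re = 0 := by
    intro n
    induction n using Nat.strong_induction_on with
    | _ n ih =>
      intro A j hn hA
      have hv : ∀ B m, (b j).re < (b m).re → RDom B b m → (v B m).re = 0 := by
        intro B m h hB
        refine ih _ ?_ B m rfl hB
        rw [← hn]
        refine Finset.card_lt_card (Finset.ssubset_iff_subset_ne.2 ⟨fun l hl => ?_, fun e => ?_⟩)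
        · exact Finset.mem_filter.2 ⟨Finset.mem_univ _, h.trans (Finset.mem_filter.1 hl).2⟩
        · have : m ∈ Finset.univ.filter fun l => (b m).re < (b l).re := by
            rw [e]; exact Finset.mem_filter.2 ⟨Finset.mem_univ _, h⟩
          exact lt_irrefl _ (Finset.mem_filter.1 this).2
      have hsub : up (b j) ⊆ side (b j) := fun x hx => Or.inr hx.2
      have hle : 𝓝[up (b j)] (b j) ≤ 𝓝[side (b j)] (b j) := nhdsWithin_mono _ hsub
      have hne := up_closure (b j)
      have hev : ∀ᶠ x in 𝓝[up (b j)] (b j), |(F A x).re| = |(F (A₀ j) x).re| := by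
        filter_upwards [(eventually_Dom_root hA).filter_mono hle,
          (eventually_Dom_root (hA₀ j)).filter_mono hle, self_mem_nhdsWithin] with x h1 h2 h3
        refine H.indep hinj (fun B m hm hB => hv B m ?_ hB) h1 h2
        rw [← h3.1]; exact hm
      have t1 : Tendsto (fun x => |(F A x).re|) (𝓝[up (b j)] (b j)) (𝓝 |(v A j).re|) :=
        ((continuous_abs.comp continuous_re).tendsto _).comp ((H.root A j hA).mono_left hle)
      have t2 : Tendsto (fun x => |(F (A₀ j) x).re|) (𝓝[up (b j)] (b j))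
          (𝓝 |(v (A₀ j) j).re|) :=
        ((continuous_abs.comp continuous_re).tendsto _).comp
          ((H.root (A₀ j) j (hA₀ j)).mono_left hle)
      have h1 := tendsto_nhds_unique t1 (t2.congr' (hev.mono fun x hx => hx.symm))
      rw [h0 j, abs_zero] at h1
      exact abs_eq_zero.1 h1
  exact fun A j => key _ A j rfl

/-- the modulus of the real part, on the whole plane -/
def Mg (b : Rd) (F : Finset (Fin 6) → ℂ → ℂ) (x : ℂ) : ℝ :=
  open Classical in if ∃ j, x = b j then 0 else |(F (R0 b x) x).re|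

theorem Mg_root (j : Fin 6) : Mg b F (b j) = 0 := if_pos ⟨j, rfl⟩

theorem GPc.Mg_eq (H : GPc b a c F v) (hinj : Function.Injective b)
    (hv : ∀ B m, RDom B b m → (v B m).re = 0) {A : Finset (Fin 6)} {x : ℂ} (h : Dom A b x) :
    Mg b F x = |(F A x).re| := by
  rw [Mg, if_neg (by push Not; exact h.ne)]
  exact H.indep hinj (fun B m _ => hv B m) (Dom_R0 h.ne) h

theorem GPc.pot (H : GPc b a c F v) (hinj : Function.Injective b)
    (hv : ∀ B m, RDom B b m → (v B m).re = 0) : Pot b a c (Mg b F) := by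
  have hloc : ∀ x₀, (∀ j, x₀ ≠ b j) → ∃ Φ D : ℂ → ℂ, ∀ᶠ x in 𝓝 x₀, HasDerivAt Φ (D x) x ∧
      Mg b F x = |(Φ x).re| ∧ ‖D x‖ = ‖a + c * x‖ / ‖sq b x‖ := by
    intro x₀ hx₀
    classical
    refine ⟨F (R0 b x₀), fun x => if h : Dom (R0 b x₀) b x then
      (a + c * x) / Classical.choose (H.deriv _ x h) else 0, ?_⟩
    filter_upwards [eventually_Dom (Dom_R0 hx₀)] with x hx
    have h1 := Classical.choose_spec (H.deriv _ x hx)
    refine ⟨?_, H.Mg_eq hinj hv hx, ?_⟩
    · simp only [hx, ↓reduceDIte]; exact h1.2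
    · simp only [hx, ↓reduceDIte]
      rw [norm_div, h1.1]
  have hcont : ∀ x₀, (∀ j, x₀ ≠ b j) → ContinuousAt (Mg b F) x₀ := by
    intro x₀ hx₀
    obtain ⟨Φ, D, hΦ⟩ := hloc x₀ hx₀
    have h1 : ContinuousAt (fun x => |(Φ x).re|) x₀ :=
      (continuous_abs.comp continuous_re).continuousAt.comp hΦ.self_of_nhds.1.continuousAt
    exact h1.congr (hΦ.mono fun x hx => hx.2.1.symm)
  refine ⟨continuous_iff_continuousAt.2 fun x₀ => ?_, fun j => Mg_root j, hloc⟩
  by_cases hx₀ : ∀ j, x₀ ≠ b j
  · exact hcont x₀ hx₀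
  push Not at hx₀
  obtain ⟨j, rfl⟩ := hx₀
  rw [ContinuousAt, Mg_root, Metric.tendsto_nhds_nhds]
  intro ε hε
  have hR := RDom_R0 hinj j
  have t1 : Tendsto (fun x => |(F (R0 b (b j)) x).re|) (𝓝[side (b j)] (b j)) (𝓝 0) := by
    have := ((continuous_abs.comp continuous_re).tendsto _).comp (H.root _ j hR)
    simp only [Function.comp_apply, hv _ j hR, abs_zero] at this
    exact this
  have t2 : ∀ᶠ x in 𝓝[side (b j)] (b j), Mg b F x < ε / 2 := by
    filter_upwards [t1.eventually (gt_mem_nhds (half_pos hε)), eventually_Dom_root hR]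
      with x hx hD
    rw [H.Mg_eq hinj hv hD]
    exact hx
  rw [eventually_nhdsWithin_iff, Metric.eventually_nhds_iff] at t2
  obtain ⟨δ, hδ, h2⟩ := t2
  obtain ⟨δ', hδ', h3⟩ : ∃ δ' > 0, ∀ x, dist x (b j) < δ' → ∀ l, x = b l → x = b j := by
    have : ∀ᶠ x in 𝓝 (b j), ∀ l, x = b l → x = b j := by
      rw [eventually_all]
      intro l
      by_cases h : b j = b l
      · exact Eventually.of_forall fun x hx => hx.trans h.symm
      · filter_upwards [isOpen_ne.mem_nhds h] with x hx hx' using absurd hx' hx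
    exact Metric.eventually_nhds_iff.1 this
  refine ⟨min δ δ', lt_min hδ hδ', fun {x} hx => ?_⟩
  rw [Real.dist_eq, sub_zero]
  by_cases hxj : x = b j
  · rw [hxj, Mg_root, abs_zero]; exact hε
  have hne : ∀ l, x ≠ b l := fun l hl => hxj (h3 x (hx.trans_le (min_le_right _ _)) l hl)
  have h4 : Mg b F x ≤ ε / 2 := by
    have hc := hcont x hne
    have hs : Tendsto (fun t : ℝ => x + t) (𝓝[>] 0) (𝓝 x) := by
      have : Continuous fun t : ℝ => x + (t : ℂ) := by fun_prop
      have := this.tendsto 0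
      simp only [ofReal_zero, add_zero] at this
      exact this.mono_left nhdsWithin_le_nhds
    refine le_of_tendsto (hc.tendsto.comp hs) ?_
    have h5 : ∀ᶠ t : ℝ in 𝓝[>] 0, x + (t : ℂ) ∈ side (b j) := by
      by_cases hre : x.re < (b j).re
      · have : ∀ᶠ t : ℝ in 𝓝 0, t < (b j).re - x.re := gt_mem_nhds (by linarith)
        filter_upwards [this.filter_mono nhdsWithin_le_nhds] with t ht
        refine Or.inl ?_
        simp only [add_re, ofReal_re]
        linarith
      · filter_upwards [self_mem_nhdsWithin] with t ht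
        refine Or.inl ?_
        simp only [add_re, ofReal_re]
        have : (0 : ℝ) < t := ht
        linarith [not_lt.1 hre]
    have h6 : ∀ᶠ t : ℝ in 𝓝[>] 0, dist (x + (t : ℂ)) (b j) < δ := by
      have : ∀ᶠ y in 𝓝 x, dist y (b j) < δ :=
        (Metric.isOpen_ball (x := b j) (ε := δ)).mem_nhds (hx.trans_le (min_le_left _ _))
      exact hs.eventually this
    filter_upwards [h5, h6] with t k1 k2 using (h2 k2 k1).le
  have h7 : 0 ≤ Mg b F x := by
    rw [H.Mg_eq hinj hv (Dom_R0 hne)]; exact abs_nonneg _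
  rw [abs_of_nonneg h7]
  linarith

/-- **Non-degeneracy for every admissible choice of paths.** -/
theorem GPc.nondeg (H : GPc b a c F v) (hinj : Function.Injective b)
    {A₀ : Fin 6 → Finset (Fin 6)} (hA₀ : ∀ j, RDom (A₀ j) b j) (h0 : ∀ j, (v (A₀ j) j).re = 0) :
    a = 0 ∧ c = 0 :=
  (H.pot hinj (H.root_zero hinj hA₀ h0)).nondeg

/-- Where equal real parts force the smaller label to be the upper one. -/
def XO : Set Rd := {b | ∀ i j, i < j → (b i).re = (b j).re → (b j).im < (b i).im}

theorem XO_injective (hb : b ∈ XO) : Function.Injective b := by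
  intro i j h
  rcases lt_trichotomy i j with h' | h' | h'
  · exact absurd (congrArg Complex.im h) (hb i j h' (congrArg Complex.re h)).ne'
  · exact h'
  · exact absurd (congrArg Complex.im h) (hb j i h' (congrArg Complex.re h).symm).ne

theorem RDom_Iio (hb : b ∈ XO) (j : Fin 6) : RDom (Finset.Iio j) b j := by
  refine ⟨by simp, fun l hlj hl => ⟨fun h => hb l j (Finset.mem_Iio.1 h) hl, fun h => ?_⟩,
    fun l hl l' hl' _ h2 => ?_⟩
  · exact hb j l (lt_of_le_of_ne (not_lt.1 fun h' => h (Finset.mem_Iio.2 h')) hlj.symm) hl.symm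
  · have h3 := Finset.mem_Iio.1 hl
    have h4 : j ≤ l' := not_lt.1 fun h' => hl' (Finset.mem_Iio.2 h')
    exact hb l l' (h3.trans_le h4) h2

/-- graph primitives of the two forms `dx / y`, `x dx / y` -/
structure GP (b : Rd) (P : Finset (Fin 6) → ℕ → ℂ → ℂ) (p : Finset (Fin 6) → ℕ → Fin 6 → ℂ) :
    Prop where
  deriv : ∀ A x, Dom A b x → ∃ s : ℂ, ‖s‖ = ‖sq b x‖ ∧
    HasDerivAt (P A 0) (1 / s) x ∧ HasDerivAt (P A 1) (x / s) x
  flipR : ∀ A m x, m ∉ A → Dom A b x → Dom (insert m A) b x → (b m).re < x.re →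
    ∀ k ≤ 1, P (insert m A) k x = P A k x
  flipL : ∀ A m x, m ∉ A → Dom A b x → Dom (insert m A) b x → x.re < (b m).re →
    ∀ k ≤ 1, P (insert m A) k x + P A k x = 2 * p A k m
  root : ∀ A j, RDom A b j → ∀ k ≤ 1, Tendsto (P A k) (𝓝[side (b j)] (b j)) (𝓝 (p A k j))

theorem GP.toGPc {P : Finset (Fin 6) → ℕ → ℂ → ℂ} {p : Finset (Fin 6) → ℕ → Fin 6 → ℂ}
    (H : GP b P p) (a c r : ℂ) :
    GPc b a c (fun A x => a * P A 0 x + c * P A 1 x + r)
      (fun A j => a * p A 0 j + c * p A 1 j + r) where
  deriv A x h := by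
    obtain ⟨s, h1, h2, h3⟩ := H.deriv A x h
    refine ⟨s, h1, (((h2.const_mul a).add (h3.const_mul c)).add_const r).congr_deriv ?_⟩
    ring
  flipR A m x h1 h2 h3 h4 := by
    simp only [H.flipR A m x h1 h2 h3 h4 0 (by norm_num), H.flipR A m x h1 h2 h3 h4 1 le_rfl]
  flipL A m x h1 h2 h3 h4 := by
    have e0 := H.flipL A m x h1 h2 h3 h4 0 (by norm_num)
    have e1 := H.flipL A m x h1 h2 h3 h4 1 le_rfl
    linear_combination a * e0 + c * e1
  root A j h :=
    (((H.root A j h 0 (by norm_num)).const_mul a).add ((H.root A j h 1 le_rfl).const_mul c)).add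
      tendsto_const_nhds

/-- **Non-degeneracy at every point of `XO`**, for the half periods `p (Iio j) k j`. -/
theorem GP.inj {P : Finset (Fin 6) → ℕ → ℂ → ℂ} {p : Finset (Fin 6) → ℕ → Fin 6 → ℂ}
    (H : GP b P p) (hb : b ∈ XO) {a c : ℂ} {r : ℝ}
    (h : ∀ j, (a * p (Finset.Iio j) 0 j + c * p (Finset.Iio j) 1 j).re + r = 0) :
    a = 0 ∧ c = 0 := by
  refine (H.toGPc a c r).nondeg (XO_injective hb) (A₀ := fun j => Finset.Iio j) (RDom_Iio hb)
    fun j => ?_
  rw [add_re, ofReal_re]
  exact h j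

end

end Vale.Agent.P273.H908
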