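import Vale.Agent.P273.H517.Core3
import Vale.Agent.P273.H598.Cross
import Vale.Agent.P273.H857.Stm
import Vale.Agent.P273.H908.GP

/-! P273 / H908, LIM-G [D], part 1: the primitive along paths above all roots, on the core of the
theta curve. -/

namespace Vale.Agent.P273.H908

open Complex Set Filter Topology Metric Bornology
open scoped ContDiff Real
open Vale.Agent.P273.H598 (rz Xz rz_sq rz_ne_zero norm_Xz differentiableAt_rz lg sg hasDerivAt_lg
  sg_eq_rz)
open Vale.Agent.P273.H517 (ph ph0 ps cm MM hn Rn kp kpf)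

noncomputable section

/-- the centres as complex numbers -/
def eC (e : Fin 3 → ℝ) : Fin 3 → ℂ := fun k => (e k : ℂ)

/-- the centres are ordered, with distances at least two -/
def SpR (e : Fin 3 → ℝ) : Prop := e 0 + 2 ≤ e 1 ∧ e 1 + 2 ≤ e 2

theorem SpR.sep {e : Fin 3 → ℝ} (he : SpR e) : H517.Sep (eC e) := by
  intro k l hkl
  have h : (2 : ℝ) ≤ |e k - e l| := by
    obtain ⟨h1, h2⟩ := he
    rw [le_abs]
    fin_cases k <;> fin_cases l <;> simp at hkl ⊢ <;>
      first
        | (left; linarith)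
        | (right; linarith)
  have : eC e k - eC e l = ((e k - e l : ℝ) : ℂ) := by simp [eC]
  rw [this, Complex.norm_real, Real.norm_eq_abs]
  exact h

/-- the six roots near the theta curve -/
def thp (e : Fin 3 → ℝ) (d : Fin 3 → ℂ) : Rd :=
  ![e 0 - d 0, e 0 + d 0, e 1 - d 1, e 1 + d 1, e 2 - d 2, e 2 + d 2]

/-- the node parameters -/
def dsq (d : Fin 3 → ℂ) : Fin 3 → ℂ := fun k => d k ^ 2

/-- the half distances are small -/
def Sd (d : Fin 3 → ℂ) : Prop := ∀ k, ‖d k‖ < 1 / 128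

theorem Sd.sm {d : Fin 3 → ℂ} (hd : Sd d) : H517.Sm (dsq d) := by
  intro k
  rw [dsq, norm_pow]
  exact pow_lt_pow_left₀ (hd k) (norm_nonneg _) two_ne_zero

theorem rt857 : H857.rt = rt := by
  funext z
  simp only [H857.rt, rt, mul_div_assoc]

theorem sq857 (b : Rd) (x : ℂ) : H857.sq ∅ b x = sq b x := by
  simp [H857.sq, H857.br, rt857, sq]

theorem sq_thp {e : Fin 3 → ℝ} {d : Fin 3 → ℂ} {x : ℂ}
    (h : ∀ k, sg (d k) (x - e k) = rz (d k ^ 2) (x - e k)) :
    (sq (thp e d) x)⁻¹ = ph0 (eC e) (dsq d) x := by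
  have h0 := h 0
  have h1 := h 1
  have h2 := h 2
  simp only [sq, Fin.prod_univ_six, thp]
  unfold ph0 ps dsq eC
  rw [← h0, ← h1, ← h2]
  unfold sg
  simp only [Matrix.cons_val]
  rw [← mul_inv, ← mul_inv]
  congr 1
  have a0 : x - (e 0 - d 0) = x - e 0 + d 0 := by ring
  have a1 : x - (e 0 + d 0) = x - e 0 - d 0 := by ring
  have a2 : x - (e 1 - d 1) = x - e 1 + d 1 := by ring
  have a3 : x - (e 1 + d 1) = x - e 1 - d 1 := by ring
  have a4 : x - (e 2 - d 2) = x - e 2 + d 2 := by ring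
  have a5 : x - (e 2 + d 2) = x - e 2 - d 2 := by ring
  rw [a0, a1, a2, a3, a4, a5]
  ring

/-- the part of the core from which one sees infinity above -/
def ZZ (e : Fin 3 → ℝ) : Set ℂ := {x | ∀ k, 1 / 128 < |x.re - e k| ∨ 1 / 128 < x.im}

theorem zz_far {e : Fin 3 → ℝ} {x : ℂ} (hx : x ∈ ZZ e) (k : Fin 3) : 1 / 128 < ‖x - eC e k‖ := by
  rcases hx k with h | h
  · refine h.trans_le ?_
    have := abs_re_le_norm (x - eC e k)
    simpa [eC] using this
  · refine h.trans_le ?_
    have := (le_abs_self _).trans (abs_im_le_norm (x - eC e k))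
    simpa [eC] using this

theorem zz_Sl {e : Fin 3 → ℝ} {x : ℂ} (hx : x ∈ ZZ e) (k : Fin 3) {d : ℂ}
    (hd : ‖d‖ < 1 / 128) : x - eC e k + d ∈ Sl := by
  rcases hx k with h | h
  · right
    intro h0
    have h1 := abs_re_le_norm d
    have h2 : x.re - e k = -d.re := by
      have : (x - eC e k + d).re = x.re - e k + d.re := by simp [eC]
      rw [this] at h0
      linarith
    rw [h2, abs_neg] at h
    linarith
  · left
    have h1 := (abs_le.1 (abs_im_le_norm d)).1
    have : (x - eC e k + d).im = x.im + d.im := by simp [eC]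
    rw [this]
    linarith

theorem zz_sg {e : Fin 3 → ℝ} {d : Fin 3 → ℂ} (hd : Sd d) {x : ℂ} (hx : x ∈ ZZ e) (k : Fin 3) :
    sg (d k) (x - e k) = rz (d k ^ 2) (x - e k) :=
  sg_eq_rz (ρ := 1 / 128) (zz_far hx k).le (fun _ h => zz_Sl hx k (mem_ball_zero_iff.1 h))
    (mem_ball_zero_iff.2 (hd k))

theorem zz_up {e : Fin 3 → ℝ} {x : ℂ} (hx : x ∈ ZZ e) {t : ℝ} (ht : 0 ≤ t) :
    x + t * I ∈ ZZ e := by
  intro k
  rcases hx k with h | h
  · left; simpa using h
  · right
    have : (x + t * I).im = x.im + t := by simp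
    rw [this]; linarith

theorem ZZ_of_im {e : Fin 3 → ℝ} {x : ℂ} (hx : 1 / 128 < x.im) : x ∈ ZZ e := fun _ => Or.inr hx

/-! ### the core primitive -/

/-- the core primitive, cut downwards at the centres -/
def QQ (e : Fin 3 → ℝ) (d : Fin 3 → ℂ) (m : ℕ) (x : ℂ) : ℂ :=
  ∑ l, cm (eC e) (dsq d) m l * lg (x - eC e l) + MM (eC e) (dsq d) m x

theorem hasDerivAt_QQ {e : Fin 3 → ℝ} (he : SpR e) {d : Fin 3 → ℂ} (hd : Sd d) {m : ℕ}
    (hm : m ≤ 1) {x : ℂ} (hx : x ∈ ZZ e) :
    HasDerivAt (QQ e d m) (ph (eC e) (dsq d) m x) x := by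
  have h1 : HasDerivAt (fun x => ∑ l, cm (eC e) (dsq d) m l * lg (x - eC e l))
      (∑ l, cm (eC e) (dsq d) m l * (x - eC e l)⁻¹) x := by
    refine HasDerivAt.fun_sum fun l _ => ?_
    refine HasDerivAt.const_mul _ ?_
    refine HasDerivAt.comp_sub_const x (eC e l) (hasDerivAt_lg ?_)
    have := zz_Sl hx l (d := 0) (by norm_num)
    simpa using this
  refine (h1.add (H517.hasDerivAt_MM he.sep hd.sm hm fun k => zz_far hx k)).congr_deriv ?_
  rw [add_sub_left_comm]
  have : ∑ l, cm (eC e) (dsq d) m l * (x - eC e l)⁻¹ =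
      ∑ k, (x - eC e k)⁻¹ * cm (eC e) (dsq d) m k := Finset.sum_congr rfl fun l _ => mul_comm _ _
  rw [this]
  ring

theorem MM_tendsto {e ε : Fin 3 → ℂ} (he : H517.Sep e) (hs : H517.Sm ε) (m : ℕ) :
    Tendsto (MM e ε m) (cobounded ℂ) (𝓝 0) := by
  have key : ∀ k, Tendsto (fun x => (2 * π * I : ℂ)⁻¹ * ∮ z in C(e k, 1 / 128), ph e ε m z *
      log (1 - (z - e k) / (x - e k))) (cobounded ℂ) (𝓝 0) := by
    intro k
    obtain ⟨C, hC⟩ := (isCompact_sphere (e k) (1 / 128)).exists_bound_of_continuousOn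
      (H517.cont_ph he hs m k)
    have hC0 : 0 ≤ C := (norm_nonneg _).trans (hC _ (circleMap_mem_sphere (e k) (by norm_num) 0))
    rw [tendsto_zero_iff_norm_tendsto_zero]
    have h1 : Tendsto (fun x : ℂ => (1 / 128 : ℝ) * (C * (3 / 2 * (1 / 128 * (‖x‖ - ‖e k‖)⁻¹))))
        (cobounded ℂ) (𝓝 0) := by
      have h2 : Tendsto (fun x : ℂ => ‖x‖ - ‖e k‖) (cobounded ℂ) atTop :=
        tendsto_atTop_add_const_right _ (-‖e k‖) tendsto_norm_cobounded_atTop
      have h3 := (((h2.inv_tendsto_atTop.const_mul (1 / 128 : ℝ)).const_mul (3 / 2)).const_mul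
        C).const_mul (1 / 128 : ℝ)
      simpa using h3
    refine squeeze_zero' (Eventually.of_forall fun x => norm_nonneg _) ?_ h1
    have h4 : ∀ᶠ x : ℂ in cobounded ℂ, ‖e k‖ + 1 < ‖x‖ :=
      tendsto_norm_cobounded_atTop.eventually_gt_atTop _
    filter_upwards [h4] with x hx
    rw [← smul_eq_mul]
    refine circleIntegral.norm_two_pi_i_inv_smul_integral_le_of_norm_le_const (by norm_num) ?_
    intro z hz
    rw [norm_mul]
    refine mul_le_mul (hC z hz) ?_ (norm_nonneg _) hC0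
    rw [mem_sphere_iff_norm] at hz
    have h5 := norm_sub_norm_le x (e k)
    have h6 : 0 < ‖x‖ - ‖e k‖ := by linarith
    have h7 : ‖(z - e k) / (x - e k)‖ ≤ 1 / 128 * (‖x‖ - ‖e k‖)⁻¹ := by
      rw [norm_div, hz, div_eq_mul_inv]
      exact mul_le_mul_of_nonneg_left (inv_anti₀ h6 h5) (by norm_num)
    have h8 : (‖x‖ - ‖e k‖)⁻¹ ≤ 1 := inv_le_one_of_one_le₀ (by linarith)
    have h9 := norm_log_one_add_half_le_self (z := -((z - e k) / (x - e k))) (by
      rw [norm_neg]
      linarith)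
    rw [norm_neg, ← sub_eq_add_neg] at h9
    linarith
  have := tendsto_finsetSum Finset.univ fun k _ => key k
  rw [Finset.sum_const_zero] at this
  exact this

theorem lg_pos {x : ℝ} (hx : 0 < x) : lg (x : ℂ) = Real.log x := by
  have h1 : log (-I * x) = Real.log x + -(π / 2) * I := by
    have e : (-I * x : ℂ) = (x : ℂ) * (-I) := by ring
    rw [e, log_ofReal_mul hx (neg_ne_zero.2 I_ne_zero), log_neg_I]
  rw [lg, h1]
  ring

theorem QQ_tendsto {e : Fin 3 → ℝ} (he : SpR e) {d : Fin 3 → ℂ} (hd : Sd d) {m : ℕ}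
    (hm : m ≤ 1) : Tendsto (fun R : ℝ => QQ e d m R) atTop (𝓝 0) := by
  have h1 : Tendsto (fun R : ℝ => MM (eC e) (dsq d) m R) atTop (𝓝 0) := by
    refine (MM_tendsto he.sep hd.sm m).comp ?_
    rw [← tendsto_norm_atTop_iff_cobounded]
    refine tendsto_abs_atTop_atTop.congr fun R => ?_
    rw [Complex.norm_real, Real.norm_eq_abs]
  have h2 : Tendsto (fun R : ℝ => ∑ l, cm (eC e) (dsq d) m l *
      ((Real.log ((R - e l) / R) : ℝ) : ℂ)) atTop (𝓝 0) := by
    have key : ∀ l, Tendsto (fun R : ℝ => cm (eC e) (dsq d) m l *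
        ((Real.log ((R - e l) / R) : ℝ) : ℂ)) atTop (𝓝 0) := by
      intro l
      have a1 : Tendsto (fun R : ℝ => 1 - e l / R) atTop (𝓝 1) := by
        have := (tendsto_const_nhds (x := e l)).div_atTop tendsto_id
        simpa using this.const_sub 1
      have a2 : Tendsto (fun R : ℝ => Real.log ((R - e l) / R)) atTop (𝓝 0) := by
        have := ((Real.continuousAt_log one_ne_zero).tendsto).comp a1
        rw [Real.log_one] at this
        refine this.congr' ?_
        filter_upwards [eventually_gt_atTop 0] with R hR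
        simp only [Function.comp_apply]
        congr 1
        field_simp
      have a3 := ((continuous_ofReal.tendsto (0 : ℝ)).comp a2).const_mul (cm (eC e) (dsq d) m l)
      simpa using a3
    simpa using tendsto_finsetSum Finset.univ fun l _ => key l
  have h3 := h2.add h1
  rw [add_zero] at h3
  refine h3.congr' ?_
  have h4 : ∀ᶠ R : ℝ in atTop, ∀ l, e l < R := by
    rw [eventually_all]
    exact fun l => eventually_gt_atTop (e l)
  filter_upwards [h4, eventually_gt_atTop 0] with R hR hR0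
  unfold QQ
  congr 1
  have h5 : ∀ l, cm (eC e) (dsq d) m l * ((Real.log ((R - e l) / R) : ℝ) : ℂ) =
      cm (eC e) (dsq d) m l * lg ((R : ℂ) - eC e l) - cm (eC e) (dsq d) m l * Real.log R := by
    intro l
    have h6 : 0 < R - e l := sub_pos.2 (hR l)
    have h7 : (R : ℂ) - eC e l = ((R - e l : ℝ) : ℂ) := by simp [eC]
    rw [h7, lg_pos h6, Real.log_div h6.ne' hR0.ne']
    push_cast
    ring
  rw [Finset.sum_congr rfl fun l _ => h5 l, Finset.sum_sub_distrib, ← Finset.sum_mul,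
    H517.sum_cm he.sep hd.sm hm]
  ring

/-- **the primitive along paths above all roots is the core primitive** -/
theorem eq_QQ {e : Fin 3 → ℝ} (he : SpR e) {d : Fin 3 → ℂ} (hd : Sd d) {m : ℕ} (hm : m ≤ 1)
    {Q : ℂ → ℂ} (hQ : ∀ x ∈ ZZ e, HasDerivAt Q (x ^ m / sq (thp e d) x) x)
    (hlim : Tendsto (fun R : ℝ => Q R) atTop (𝓝 0)) {x : ℂ} (hx : x ∈ ZZ e) :
    Q x = QQ e d m x := by
  set D : ℂ → ℂ := fun x => Q x - QQ e d m x
  have hD : ∀ x ∈ ZZ e, HasDerivAt D 0 x := by
    intro x hx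
    refine ((hQ x hx).sub (hasDerivAt_QQ he hd hm hx)).congr_deriv ?_
    rw [div_eq_mul_inv, sq_thp fun k => zz_sg hd hx k]
    simp [ph]
  have const : ∀ s : Set ℂ, s ⊆ ZZ e → Convex ℝ s → ∀ x ∈ s, ∀ y ∈ s, D x = D y := by
    intro s hs hc x hx y hy
    have := hc.norm_image_sub_le_of_norm_hasDerivWithin_le (f := D) (f' := fun _ => 0) (C := 0)
      (fun z hz => (hD z (hs hz)).hasDerivWithinAt) (fun z _ => by simp) hy hx
    rw [zero_mul] at this
    exact sub_eq_zero.1 (norm_le_zero_iff.1 this)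
  have hup : ∀ x ∈ ZZ e, ∀ T : ℝ, 0 ≤ T → D x = D (x + T * I) := by
    intro x hx T hT
    refine const (segment ℝ x (x + T * I)) ?_ (convex_segment _ _) _ (left_mem_segment _ _ _) _
      (right_mem_segment _ _ _)
    rw [segment_eq_image']
    rintro _ ⟨t, ht, rfl⟩
    have : x + t • (x + T * I - x) = x + ((t * T : ℝ) : ℂ) * I := by
      rw [real_smul]; push_cast; ring
    simp only [this]
    exact zz_up hx (mul_nonneg ht.1 hT)
  have hH : Convex ℝ {z : ℂ | 1 / 128 < z.im} := convex_halfSpace_im_gt _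
  have hall : ∀ x ∈ ZZ e, ∀ y ∈ ZZ e, D x = D y := by
    intro x hx y hy
    have hT : 0 ≤ |x.im| + |y.im| + 1 := by positivity
    rw [hup x hx _ hT, hup y hy _ hT]
    refine const {z : ℂ | 1 / 128 < z.im} (fun z hz => ZZ_of_im hz) hH _ ?_ _ ?_
    · have : (x + ((|x.im| + |y.im| + 1 : ℝ) : ℂ) * I).im = x.im + (|x.im| + |y.im| + 1) := by simp
      show (1 : ℝ) / 128 < (x + ((|x.im| + |y.im| + 1 : ℝ) : ℂ) * I).im
      rw [this]
      linarith [neg_abs_le x.im, abs_nonneg y.im]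
    · have : (y + ((|x.im| + |y.im| + 1 : ℝ) : ℂ) * I).im = y.im + (|x.im| + |y.im| + 1) := by simp
      show (1 : ℝ) / 128 < (y + ((|x.im| + |y.im| + 1 : ℝ) : ℂ) * I).im
      rw [this]
      linarith [neg_abs_le y.im, abs_nonneg x.im]
  have hlimD : Tendsto (fun R : ℝ => D R) atTop (𝓝 0) := by
    have := hlim.sub (QQ_tendsto he hd hm)
    rw [sub_zero] at this
    exact this
  have hev : ∀ᶠ R : ℝ in atTop, D R = D x := by
    have h4 : ∀ᶠ R : ℝ in atTop, ∀ l, e l + 1 < R := by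
      rw [eventually_all]
      exact fun l => eventually_gt_atTop _
    filter_upwards [h4] with R hR
    refine hall _ (fun l => Or.inl ?_) _ hx
    have h5 : 1 < R - e l := by linarith [hR l]
    have : (R : ℂ).re - e l = R - e l := by simp
    rw [this, abs_of_pos (by linarith)]
    linarith
  have h0 : D x = 0 := tendsto_nhds_unique (tendsto_const_nhds.congr' (hev.mono fun R h => h.symm))
    hlimD
  exact sub_eq_zero.1 h0

end

end Vale.Agent.P273.H908
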