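import Vale.Agent.P273.H908.Id1

/-! P273 / H908, LIM-G [D], part 2: the half periods at the theta curve. -/

namespace Vale.Agent.P273.H908

open Complex Set Filter Topology Metric Bornology
open scoped ContDiff Real
open Vale.Agent.P273.H598 (rz Xz rz_sq rz_ne_zero norm_Xz differentiableAt_rz lg sg hasDerivAt_lg
  sg_eq_rz XS NN Sq neck_formula tendsto_NN_root c0 P0 XS_neg sg_neg)
open Vale.Agent.P273.H517 (ph ph0 ps cm MM hn Rn kp kpf)

noncomputable section

/-! ### the pairs -/

/-- the left root of the pair `k` (in the standard order) -/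
def jl (k : Fin 3) : Fin 6 := ⟨2 * k, by omega⟩

/-- the right root of the pair `k` -/
def jr (k : Fin 3) : Fin 6 := ⟨2 * k + 1, by omega⟩

/-- the pair of a root -/
def pr (l : Fin 6) : Fin 3 := ⟨(l : ℕ) / 2, by omega⟩

theorem pr_jl (k : Fin 3) : pr (jl k) = k := by fin_cases k <;> rfl
theorem pr_jr (k : Fin 3) : pr (jr k) = k := by fin_cases k <;> rfl

theorem eq_jl_or_jr (l : Fin 6) : l = jl (pr l) ∨ l = jr (pr l) := by
  fin_cases l <;> simp [jl, jr, pr]

theorem mem_lo_jl {k : Fin 3} {l : Fin 6} : l ∈ H857.lo (jl k) ↔ pr l < k := by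
  simp only [H857.lo, Finset.mem_filter, Finset.mem_univ, true_and]
  rw [Fin.lt_def, Fin.lt_def]
  simp only [jl, pr]
  omega

theorem lo_jr (k : Fin 3) : H857.lo (jr k) = insert (jl k) (H857.lo (jl k)) := by
  ext l
  simp only [H857.lo, Finset.mem_filter, Finset.mem_univ, true_and, Finset.mem_insert]
  rw [Fin.lt_def, Fin.lt_def, Fin.ext_iff]
  simp only [jl, jr]
  omega

theorem jl_notMem (k : Fin 3) : jl k ∉ H857.lo (jl k) := by simp [H857.lo]
theorem jr_notMem (k : Fin 3) : jr k ∉ H857.lo (jr k) := by simp [H857.lo]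
theorem jr_notMem' (k : Fin 3) : jr k ∉ H857.lo (jl k) := by
  rw [mem_lo_jl, pr_jr]; exact lt_irrefl _
theorem jl_ne_jr (k : Fin 3) : jl k ≠ jr k := by
  intro h
  have := congrArg Fin.val h
  simp only [jl, jr] at this
  omega

variable {e : Fin 3 → ℝ} {d : Fin 3 → ℂ}

theorem thp_jl (k : Fin 3) : thp e d (jl k) = e k - d k := by fin_cases k <;> rfl
theorem thp_jr (k : Fin 3) : thp e d (jr k) = e k + d k := by fin_cases k <;> rfl

theorem re_thp (hd : Sd d) (l : Fin 6) : |(thp e d l).re - e (pr l)| < 1 / 128 := by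
  have h1 := (abs_re_le_norm (d (pr l))).trans_lt (hd (pr l))
  rcases eq_jl_or_jr l with h | h
  · rw [h, thp_jl, pr_jl]
    simpa using h1
  · rw [h, thp_jr, pr_jr]
    simpa using h1

theorem im_thp (hd : Sd d) (l : Fin 6) : |(thp e d l).im| < 1 / 128 := by
  have h1 := (abs_im_le_norm (d (pr l))).trans_lt (hd (pr l))
  rcases eq_jl_or_jr l with h | h
  · rw [h, thp_jl]
    simpa using h1
  · rw [h, thp_jr]
    simpa using h1

theorem SpR.gap (he : SpR e) {k l : Fin 3} (h : k < l) : e k + 2 ≤ e l := by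
  obtain ⟨h1, h2⟩ := he
  fin_cases k <;> fin_cases l <;> simp at h ⊢ <;> linarith

theorem thp_lt (he : SpR e) (hd : Sd d) {l m : Fin 6} (h : pr l < pr m) :
    (thp e d l).re + 1 < (thp e d m).re := by
  have h1 := abs_lt.1 (re_thp (e := e) hd l)
  have h2 := abs_lt.1 (re_thp (e := e) hd m)
  have h3 := he.gap h
  linarith [h1.2, h2.1]

theorem pr_eq_of_re (he : SpR e) (hd : Sd d) {l m : Fin 6}
    (h : (thp e d l).re = (thp e d m).re) : pr l = pr m := by
  rcases lt_trichotomy (pr l) (pr m) with h' | h' | h'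
  · linarith [thp_lt he hd h']
  · exact h'
  · linarith [thp_lt he hd h']

theorem thp_inj (he : SpR e) (hd : Sd d) (h0 : ∀ k, d k ≠ 0) : Function.Injective (thp e d) := by
  intro l m h
  have h1 := pr_eq_of_re he hd (congrArg re h)
  have h2 : ∀ k, (e k : ℂ) - d k ≠ e k + d k := by
    intro k h3
    refine h0 k ?_
    have : (2 : ℂ) * d k = 0 := by linear_combination -h3
    simpa using this
  rcases eq_jl_or_jr l with hl | hl <;> rcases eq_jl_or_jr m with hm | hm
  · rw [hl, hm, h1]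
  · rw [hl, hm, ← h1, thp_jl, thp_jr] at h
    exact absurd h (h2 _)
  · rw [hl, hm, ← h1, thp_jl, thp_jr] at h
    exact absurd h.symm (h2 _)
  · rw [hl, hm, h1]

/-- near the pair `k`, only its two roots can be on the vertical of `x` -/
theorem pr_of_re (he : SpR e) (hd : Sd d) {k : Fin 3} {x : ℂ} (hx : |x.re - e k| < 3 / 10)
    {l : Fin 6} (h : (thp e d l).re = x.re) : pr l = k := by
  have h1 := abs_lt.1 (re_thp (e := e) hd l)
  have h2 := abs_lt.1 hx
  rcases lt_trichotomy (pr l) k with h' | h' | h'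
  · have := he.gap h'; linarith [h1.2, h2.1]
  · exact h'
  · have := he.gap h'; linarith [h1.1, h2.2]

theorem OK_jl (he : SpR e) (hd : Sd d) {k : Fin 3} {x : ℂ} (hx : |x.re - e k| < 3 / 10)
    (hl : thp e d (jl k) ≠ x → (thp e d (jl k)).re = x.re → (thp e d (jl k)).im < x.im)
    (hr : thp e d (jr k) ≠ x → (thp e d (jr k)).re = x.re → (thp e d (jr k)).im < x.im) :
    H857.OK (H857.lo (jl k)) (thp e d) x := by
  refine ⟨fun l hl m hm h1 _ => ?_, fun l hlx h => ?_⟩
  · rw [mem_lo_jl] at hl hm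
    have := pr_eq_of_re he hd h1
    rw [this] at hl
    exact absurd hl hm
  · have h1 := pr_of_re he hd hx h
    refine ⟨fun h2 => ?_, fun _ => ?_⟩
    · rw [mem_lo_jl, h1] at h2
      exact absurd h2 (lt_irrefl _)
    · rcases eq_jl_or_jr l with h3 | h3
      · rw [h1] at h3
        rw [h3] at hlx h ⊢
        exact hl hlx h
      · rw [h1] at h3
        rw [h3] at hlx h ⊢
        exact hr hlx h

theorem OK_jr (he : SpR e) (hd : Sd d) {k : Fin 3} {x : ℂ} (hx : |x.re - e k| < 3 / 10)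
    (ht : (d k).re = 0 → (d k).im < 0)
    (hl : thp e d (jl k) ≠ x → (thp e d (jl k)).re = x.re → x.im < (thp e d (jl k)).im)
    (hr : thp e d (jr k) ≠ x → (thp e d (jr k)).re = x.re → (thp e d (jr k)).im < x.im) :
    H857.OK (H857.lo (jr k)) (thp e d) x := by
  rw [lo_jr]
  refine ⟨fun l hl' m hm h1 _ => ?_, fun l hlx h => ?_⟩
  · have h2 := pr_eq_of_re he hd h1
    rw [Finset.mem_insert, mem_lo_jl] at hl' hm
    push Not at hm
    rcases hl' with rfl | hl'
    · rw [pr_jl] at h2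
      rcases eq_jl_or_jr m with h3 | h3
      · rw [← h2] at h3
        exact absurd h3 hm.1
      · rw [← h2] at h3
        rw [h3, thp_jl, thp_jr] at h1
        have h4 : (d k).re = 0 := by
          simp only [sub_re, add_re] at h1
          linarith
        have h5 := ht h4
        rw [h3, thp_jl, thp_jr]
        simp only [sub_im, add_im]
        linarith
    · rw [h2] at hl'
      exact absurd hl' (not_lt.2 hm.2)
  · have h1 := pr_of_re he hd hx h
    rcases eq_jl_or_jr l with h3 | h3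
    · rw [h1] at h3
      rw [h3] at hlx h ⊢
      exact ⟨fun _ => hl hlx h, fun h2 => absurd (Finset.mem_insert_self _ _) h2⟩
    · rw [h1] at h3
      rw [h3] at hlx h ⊢
      refine ⟨fun h2 => ?_, fun _ => hr hlx h⟩
      rw [Finset.mem_insert] at h2
      rcases h2 with h2 | h2
      · exact absurd h2.symm (jl_ne_jr k)
      · exact absurd h2 (jr_notMem' k)

/-! ### the labels on the left do not matter -/

theorem P_left (hF : H857.StmFLIPR) {m : ℕ} (hm : m ≤ 1) {b : Rd} (hb : Function.Injective b)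
    {x : ℂ} (hx : ∀ l, (b l).re ≠ x.re) (B : Finset (Fin 6)) (hB : ∀ l ∈ B, (b l).re < x.re) :
    H857.P m B b x = H857.P m ∅ b x := by
  have hOK : ∀ B : Finset (Fin 6), (∀ l ∈ B, (b l).re < x.re) → H857.OK B b x := fun B hB =>
    ⟨fun l hl _ _ _ h => absurd h (lt_asymm (hB l hl)), fun l _ h => absurd h (hx l)⟩
  induction B using Finset.induction_on with
  | empty => rfl
  | insert a B ha ih =>
    have hB' : ∀ l ∈ B, (b l).re < x.re := fun l hl => hB l (Finset.mem_insert_of_mem hl)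
    rw [hF m B b x a hm hb ha (hOK B hB') (hOK _ hB) (hB a (Finset.mem_insert_self _ _)).le]
    exact ih hB'

theorem sq_left {b : Rd} {x : ℂ} {B : Finset (Fin 6)} (hB : ∀ l ∈ B, (b l).re < x.re) :
    H857.sq B b x = sq b x := by
  rw [← sq857]
  unfold H857.sq
  refine Finset.prod_congr rfl fun l _ => ?_
  unfold H857.br
  by_cases hl : l ∈ B
  · rw [if_pos hl, if_neg (Finset.notMem_empty l), H857.rt_eq_ru]
    rw [sub_re]
    linarith [hB l hl]
  · rw [if_neg hl, if_neg (Finset.notMem_empty l)]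

/-! ### limits -/

theorem P_tendsto_inf (hI : H857.StmINF) {m : ℕ} (hm : m ≤ 1) {b : Rd}
    (hb : Function.Injective b) : Tendsto (fun R : ℝ => H857.P m ∅ b (R : ℂ)) atTop (𝓝 0) := by
  obtain ⟨h1, h2⟩ := hI m b hm hb
  have hK : H857.Ki m b 0 = 0 := by
    unfold H857.Ki
    rw [zero_pow (by omega)]
    simp
  have ht : Tendsto (fun R : ℝ => (b, ((R⁻¹ : ℝ) : ℂ))) atTop (𝓝 (b, 0)) := by
    refine Tendsto.prodMk_nhds tendsto_const_nhds ?_
    have := (continuous_ofReal.tendsto (0 : ℝ)).comp tendsto_inv_atTop_zero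
    rw [ofReal_zero] at this
    exact this
  have h3 : Tendsto (fun R : ℝ => H857.Ki m b ((R⁻¹ : ℝ) : ℂ)) atTop (𝓝 0) := by
    have := h1.continuousAt.tendsto.comp ht
    rw [hK] at this
    exact this
  refine h3.congr' ?_
  filter_upwards [ht.eventually h2, eventually_gt_atTop 0] with R hR hR0
  have h4 : ((R⁻¹ : ℝ) : ℂ) ≠ 0 := by
    rw [Ne, ofReal_eq_zero]
    exact (inv_pos.2 hR0).ne'
  have h5 := (hR h4).1 (by simp)
  rw [← h5]
  simp

theorem P_tendsto_root (hR : H857.StmROOT) {m : ℕ} (hm : m ≤ 1) {B : Finset (Fin 6)} {b : Rd}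
    (hb : Function.Injective b) {j : Fin 6} (hj : j ∉ B) (hOK : H857.OK B b (b j)) :
    Tendsto (H857.P m B b) (𝓝[{x | x - b j ∈ Sl}] (b j)) (𝓝 (H857.P m B b (b j))) := by
  obtain ⟨h1, h2⟩ := hR m B b j hm hb hOK hj
  have ht : Tendsto (fun x : ℂ => (b, x - b j)) (𝓝 (b j)) (𝓝 (b, 0)) := by
    refine Tendsto.prodMk_nhds tendsto_const_nhds ?_
    have : Tendsto (fun x : ℂ => x - b j) (𝓝 (b j)) (𝓝 (b j - b j)) :=
      (continuous_id.sub continuous_const).tendsto _
    rwa [sub_self] at this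
  have h3 : Tendsto (fun x : ℂ => H857.P m B b (b j) + H857.rt (x - b j) *
      H857.Er m j B b (x - b j)) (𝓝 (b j)) (𝓝 (H857.P m B b (b j))) := by
    have a1 := h1.continuousAt.tendsto.comp ht
    have a2 : Tendsto (fun x : ℂ => H857.rt (x - b j)) (𝓝 (b j)) (𝓝 0) := by
      rw [rt857]
      have : ContinuousAt (fun x : ℂ => rt (x - b j)) (b j) := by
        refine ContinuousAt.comp (g := rt) (f := fun x => x - b j) ?_ (by fun_prop)
        rw [sub_self]
        exact continuousAt_rt_zero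
      have := this.tendsto
      rwa [sub_self, rt_zero] at this
    have a3 := (a2.mul a1).const_add (H857.P m B b (b j))
    rw [zero_mul, add_zero] at a3
    exact a3
  refine (h3.mono_left nhdsWithin_le_nhds).congr' ?_
  filter_upwards [(ht.eventually h2).filter_mono nhdsWithin_le_nhds, self_mem_nhdsWithin]
    with x hx hxs
  have h4 := (hx.1 hxs)
  simp only [add_sub_cancel] at h4
  exact h4.symm

/-! ### in the neck -/

theorem jr_val (k : Fin 3) : ((jr k : Fin 6) : ℕ) = 2 * k + 1 := rfl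

theorem sq_prod (e : Fin 3 → ℝ) (d : Fin 3 → ℂ) (x : ℂ) :
    sq (thp e d) x = ∏ l, sg (d l) (x - e l) := by
  simp only [sq, Fin.prod_univ_six, Fin.prod_univ_three, thp]
  unfold sg
  simp only [Matrix.cons_val]
  have a0 : x - (e 0 - d 0) = x - e 0 + d 0 := by ring
  have a1 : x - (e 0 + d 0) = x - e 0 - d 0 := by ring
  have a2 : x - (e 1 - d 1) = x - e 1 + d 1 := by ring
  have a3 : x - (e 1 + d 1) = x - e 1 - d 1 := by ring
  have a4 : x - (e 2 - d 2) = x - e 2 + d 2 := by ring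
  have a5 : x - (e 2 + d 2) = x - e 2 - d 2 := by ring
  rw [a0, a1, a2, a3, a4, a5]
  ring

theorem far_re (he : SpR e) {k l : Fin 3} (h : l ≠ k) {x : ℂ} (hx : |x.re - e k| < 3 / 10) :
    1 / 128 < |x.re - e l| := by
  have h2 := abs_lt.1 hx
  rw [lt_abs]
  rcases lt_or_gt_of_ne h with h' | h'
  · have := he.gap h'
    left; linarith [h2.1]
  · have := he.gap h'
    right; linarith [h2.2]

theorem sg_far (hd : Sd d) {x : ℂ} {l : Fin 3} (h : 1 / 128 < |x.re - e l|) :
    sg (d l) (x - e l) = rz (d l ^ 2) (x - e l) := by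
  have h1 : (1 : ℝ) / 128 < ‖x - e l‖ := by
    refine h.trans_le ?_
    have := abs_re_le_norm (x - e l)
    simpa using this
  refine sg_eq_rz (ρ := 1 / 128) h1.le (fun c hc => ?_) (mem_ball_zero_iff.2 (hd l))
  rw [mem_ball_zero_iff] at hc
  right
  intro h0
  have h2 := abs_re_le_norm c
  have h3 : x.re - e l = -c.re := by
    have : (x - e l + c).re = x.re - e l + c.re := by simp
    rw [this] at h0
    linarith
  rw [h3, abs_neg] at h
  linarith

/-- the form in the neck -/
theorem form_neck (he : SpR e) (hd : Sd d) (m : ℕ) (k : Fin 3) {z : ℂ} (hz : |z.re| < 3 / 10) :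
    (e k + z) ^ m / sq (thp e d) (e k + z) =
      (sg (d k) z)⁻¹ * hn (eC e) (dsq d) m k z := by
  have hx : |((e k : ℂ) + z).re - e k| < 3 / 10 := by simpa using hz
  rw [sq_prod, ← Finset.mul_prod_erase Finset.univ _ (Finset.mem_univ k)]
  have h1 : ∀ l ∈ Finset.univ.erase k, sg (d l) (e k + z - e l) =
      rz (d l ^ 2) (e k + z - e l) := fun l hl =>
    sg_far hd (far_re he (Finset.ne_of_mem_erase hl) hx)
  rw [Finset.prod_congr rfl h1, add_sub_cancel_left]
  unfold hn ps dsq eC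
  rw [Finset.prod_inv_distrib, div_eq_mul_inv, mul_inv]
  ring

theorem Dom_iff {c z : ℂ} : z ∈ H598.Dom c ↔ z + c ∈ Sl ∧ z - c ∈ Sl := Iff.rfl

theorem lt_im_of_Sl {z c : ℂ} (h : z + c ∈ Sl) (h0 : -c.re = z.re) : -c.im < z.im := by
  rcases h with h | h
  · rw [add_im] at h; linarith
  · rw [add_re] at h
    exact absurd (by linarith) h

/-- the points of the neck -/
theorem OK_neck (he : SpR e) (hd : Sd d) {k : Fin 3} {z : ℂ} (hz : z ∈ H598.Dom (d k))
    (hs : |z.re| < 3 / 10) : H857.OK (H857.lo (jl k)) (thp e d) (e k + z) := by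
  refine OK_jl he hd (by simpa using hs) (fun _ h => ?_) (fun _ h => ?_)
  · rw [thp_jl] at h ⊢
    simp only [sub_re, ofReal_re, add_re] at h
    simp only [sub_im, ofReal_im, add_im]
    have := lt_im_of_Sl hz.1 (by linarith)
    linarith
  · rw [thp_jr] at h ⊢
    simp only [ofReal_re, add_re] at h
    simp only [ofReal_im, add_im]
    have h1 : z + -d k ∈ Sl := by rw [← sub_eq_add_neg]; exact hz.2
    have := lt_im_of_Sl h1 (by rw [neg_re]; linarith)
    rw [neg_im] at this
    linarith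

theorem ne_neck (he : SpR e) (hd : Sd d) {k : Fin 3} {z : ℂ} (hz : z ∈ H598.Dom (d k))
    (hs : |z.re| < 3 / 10) (l : Fin 6) : thp e d l ≠ e k + z := by
  intro h
  have h1 := pr_of_re he hd (k := k) (x := (e k : ℂ) + z) (by simpa using hs) (congrArg re h)
  rcases eq_jl_or_jr l with h2 | h2
  · rw [h2, h1, thp_jl] at h
    refine Sl_ne_zero hz.1 ?_
    linear_combination -h
  · rw [h2, h1, thp_jr] at h
    refine Sl_ne_zero hz.2 ?_
    linear_combination -h

theorem left_neck (he : SpR e) (hd : Sd d) {k : Fin 3} {x : ℂ} (hx : |x.re - e k| < 3 / 10)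
    {l : Fin 6} (hl : l ∈ H857.lo (jl k)) : (thp e d l).re < x.re := by
  rw [mem_lo_jl] at hl
  have h1 := he.gap hl
  have h2 := (abs_lt.1 (re_thp (e := e) hd l)).2
  have h3 := (abs_lt.1 hx).1
  linarith

/-- derivative of the primitive in the neck -/
theorem hasDerivAt_P_neck (hH : H857.StmHOL) (he : SpR e) (hd : Sd d) (h0 : ∀ k, d k ≠ 0) {m : ℕ}
    (hm : m ≤ 1) {k : Fin 3} {z : ℂ} (hz : z ∈ H598.Dom (d k)) (hs : |z.re| < 3 / 10) :
    HasDerivAt (fun z => H857.P m (H857.lo (jl k)) (thp e d) (e k + z))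
      ((sg (d k) z)⁻¹ • hn (eC e) (dsq d) m k z) z := by
  have hx : |((e k : ℂ) + z).re - e k| < 3 / 10 := by simpa using hs
  have h1 := (hH m (H857.lo (jl k)) (thp e d) (e k + z) hm (thp_inj he hd h0)
    (ne_neck he hd hz hs) (OK_neck he hd hz hs)).2
  rw [sq_left fun l hl => left_neck he hd hx hl, form_neck he hd m k hs] at h1
  exact HasDerivAt.comp_const_add (e k : ℂ) z h1

/-- `P` minus the neck formula is constant -/
theorem P_neck (hH : H857.StmHOL) (he : SpR e) (hd : Sd d) (h0 : ∀ k, d k ≠ 0) {m : ℕ}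
    (hm : m ≤ 1) {k : Fin 3} {z w : ℂ} (hz : z ∈ H598.Dom (d k) ∩ Sq (3 / 10))
    (hw : w ∈ H598.Dom (d k) ∩ Sq (3 / 10)) :
    H857.P m (H857.lo (jl k)) (thp e d) (e k + z) - NN (hn (eC e) (dsq d) m k) (3 / 2) (d k) z =
    H857.P m (H857.lo (jl k)) (thp e d) (e k + w) -
      NN (hn (eC e) (dsq d) m k) (3 / 2) (d k) w := by
  have h5 : (5 : ℝ) * (3 / 10) = 3 / 2 := by norm_num
  have key := neck_formula (h := hn (eC e) (dsq d) m k) (ρ := 3 / 10)
    (by rw [h5]; exact H517.hn_dc he.sep hd.sm m k) (d := d k) ((hd k).trans (by norm_num))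
    (Q := fun z => H857.P m (H857.lo (jl k)) (thp e d) (e k + z))
    (fun z hz => hasDerivAt_P_neck hH he hd h0 hm hz.1 hz.2.1) hz hw
  rw [h5] at key
  exact key

/-! ### the matching constant -/

/-- the choice of `log (e k - e l)`: paths above the centres on the right -/
def ell (e : Fin 3 → ℝ) (k l : Fin 3) : ℂ := lg (eC e k - eC e l)

theorem lg_neg {x : ℝ} (hx : x < 0) : lg (x : ℂ) = Real.log (-x) + π * I := by
  have h1 : log (-I * x) = Real.log (-x) + (π / 2) * I := by
    have e : (-I * x : ℂ) = ((-x : ℝ) : ℂ) * I := by push_cast; ring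
    rw [e, log_ofReal_mul (neg_pos.2 hx) I_ne_zero, log_I]
  rw [lg, h1]
  ring

theorem lg_add_real {a t : ℝ} (ha : 2 ≤ |a|) (ht : |t| < 1) :
    lg ((a : ℂ) + t) = lg (a : ℂ) + log (1 + t / a) := by
  have h1 := abs_lt.1 ht
  have ha0 : a ≠ 0 := by rintro rfl; norm_num at ha
  have h2 : (1 : ℂ) + t / a = (((a + t) / a : ℝ) : ℂ) := by
    push_cast
    have : (a : ℂ) ≠ 0 := by exact_mod_cast ha0
    field_simp
  rw [h2, ← ofReal_add]
  rcases le_abs.1 ha with h | h
  · have h3 : 0 < a + t := by linarith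
    rw [lg_pos h3, lg_pos (by linarith), ← ofReal_log (by positivity),
      Real.log_div h3.ne' ha0]
    push_cast
    ring
  · have h3 : a + t < 0 := by linarith
    have h4 : 0 ≤ (a + t) / a := div_nonneg_of_nonpos h3.le (by linarith)
    rw [lg_neg h3, lg_neg (by linarith), ← ofReal_log h4]
    have h5 : (a + t) / a = -(a + t) / -a := by rw [neg_div_neg_eq]
    rw [h5, Real.log_div (by linarith) (by linarith)]
    push_cast
    ring

theorem lg_eq_log {z : ℂ} (h : 0 < z.re) : lg z = log z := by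
  have hz0 : z ≠ 0 := by rintro rfl; simp at h
  have h1 : log (-I * z) = log (-I) + log z := by
    refine (log_mul_eq_add_log_iff (neg_ne_zero.2 I_ne_zero) hz0).2 ?_
    rw [arg_neg_I]
    have h2 := abs_lt.1 (abs_arg_lt_pi_div_two_iff.2 (Or.inl h))
    constructor
    · linarith [h2.1, Real.pi_pos]
    · linarith [h2.2, Real.pi_pos]
  rw [lg, h1, log_neg_I]
  ring

theorem quarter_mem (hd : Sd d) (k : Fin 3) :
    (1 / 4 : ℂ) ∈ H598.Dom (d k) ∩ Sq (3 / 10) := by
  have h1 := abs_lt.1 ((abs_re_le_norm (d k)).trans_lt (hd k))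
  refine ⟨⟨Or.inr ?_, Or.inr ?_⟩, ?_, ?_⟩
  · have : ((1 / 4 : ℂ) + d k).re = 1 / 4 + (d k).re := by rw [add_re]; norm_num
    rw [this]; linarith [h1.1]
  · have : ((1 / 4 : ℂ) - d k).re = 1 / 4 - (d k).re := by rw [sub_re]; norm_num
    rw [this]; linarith [h1.2]
  · have : (1 / 4 : ℂ).re = 1 / 4 := by norm_num
    rw [this]; norm_num
  · have : (1 / 4 : ℂ).im = 0 := by norm_num
    rw [this]; norm_num

/-- **the constant of the neck is 517's matching constant** -/
theorem QQ_quarter (he : SpR e) (hd : Sd d) {m : ℕ} (k : Fin 3) :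
    QQ e d m (e k + 1 / 4) - NN (hn (eC e) (dsq d) m k) (3 / 2) (d k) (1 / 4) =
      kp (eC e) (dsq d) (ell e) m k := by
  have hz : (1 / 4 : ℂ) = ((1 / 4 : ℝ) : ℂ) := by push_cast; rfl
  have hlt : ‖d k ^ 2‖ < ‖(1 / 4 : ℂ)‖ ^ 2 := by
    have h1 : ‖(1 / 4 : ℂ)‖ = 1 / 4 := by rw [norm_div]; norm_num
    rw [h1, norm_pow]
    exact pow_lt_pow_left₀ ((hd k).trans (by norm_num)) (norm_nonneg _) two_ne_zero
  have hsg : sg (d k) (1 / 4) = rz (d k ^ 2) (1 / 4) := by
    have h := sg_far (e := e) hd (x := (e k : ℂ) + 1 / 4) (l := k) (by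
      have : ((e k : ℂ) + 1 / 4).re - e k = 1 / 4 := by
        rw [add_re, ofReal_re]; norm_num
      rw [this]; norm_num)
    rwa [add_sub_cancel_left] at h
  have hXS : XS (d k) (1 / 4) = Xz (d k ^ 2) (1 / 4) := by
    unfold XS Xz
    rw [hsg]
  have hX0 := H517.Xz_slit hlt
  have hXre : 0 < (Xz (d k ^ 2) (1 / 4) / (1 / 4)).re := by
    have h1 : Xz (d k ^ 2) (1 / 4) / (1 / 4) =
        1 + (1 - d k ^ 2 / (1 / 4) ^ 2) ^ ((2 : ℂ)⁻¹) := by
      unfold Xz rz
      field_simp
    have h2 := H598.sqrt_re_pos (H598.slit_of_lt hlt)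
    rw [h1, add_re, one_re]
    linarith
  have hlX : lg (Xz (d k ^ 2) (1 / 4)) = lg ((1 / 4 : ℝ) : ℂ) +
      log (Xz (d k ^ 2) (1 / 4) / (1 / 4)) := by
    have h1 : Xz (d k ^ 2) (1 / 4) = ((1 / 4 : ℝ) : ℂ) * (Xz (d k ^ 2) (1 / 4) / (1 / 4)) := by
      rw [← hz]; field_simp
    have h2 : 0 < (Xz (d k ^ 2) (1 / 4)).re := by
      rw [h1, re_ofReal_mul]
      exact mul_pos (by norm_num) hXre
    rw [lg_eq_log h2]
    conv_lhs => rw [h1]
    rw [log_ofReal_mul (by norm_num) (slitPlane_ne_zero hX0), lg_pos (by norm_num)]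
  have hsum : ∑ l, cm (eC e) (dsq d) m l * lg ((e k : ℂ) + 1 / 4 - eC e l) =
      cm (eC e) (dsq d) m k * lg ((1 / 4 : ℝ) : ℂ) +
      ∑ l ∈ Finset.univ.erase k, cm (eC e) (dsq d) m l *
        (ell e k l + log (1 + 1 / 4 / (eC e k - eC e l))) := by
    rw [← Finset.add_sum_erase Finset.univ _ (Finset.mem_univ k)]
    congr 1
    · have : (e k : ℂ) + 1 / 4 - eC e k = ((1 / 4 : ℝ) : ℂ) := by
        simp [eC]
      rw [this]
    · refine Finset.sum_congr rfl fun l hl => ?_
      congr 1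
      have h1 : (e k : ℂ) + 1 / 4 - eC e l = ((e k - e l : ℝ) : ℂ) + ((1 / 4 : ℝ) : ℂ) := by
        simp only [eC]; push_cast; ring
      have h2 : eC e k - eC e l = ((e k - e l : ℝ) : ℂ) := by simp [eC]
      have h3 : 2 ≤ |e k - e l| := by
        have := he.sep k l (Finset.ne_of_mem_erase hl).symm
        rwa [h2, Complex.norm_real, Real.norm_eq_abs] at this
      rw [h1, lg_add_real h3 (by norm_num), ell, h2, ← hz]
  have hc : c0 (hn (eC e) (dsq d) m k) (3 / 2) (d k ^ 2) = cm (eC e) (dsq d) m k :=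
    (H517.cm_eq_c0 he.sep hd.sm m k).symm
  unfold QQ kp kpf NN Rn
  rw [hsum, hXS, hlX, hc, smul_eq_mul]
  simp only [eC, dsq]
  ring

/-! ### the half periods -/

/-- the statements of 857 that are used here -/
structure Stms : Prop where
  hol : H857.StmHOL
  root : H857.StmROOT
  flipR : H857.StmFLIPR
  flipL : H857.StmFLIPL
  inf : H857.StmINF

/-- `d k` is not on the closed upward half line -/
def Od (d : Fin 3 → ℂ) : Prop := ∀ k, (d k).re = 0 → (d k).im < 0

theorem Od.ne (hx : Od d) (k : Fin 3) : d k ≠ 0 := by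
  intro h
  have := hx k (by rw [h]; rfl)
  rw [h] at this
  exact lt_irrefl _ this

theorem Od.neg_mem (hx : Od d) (k : Fin 3) : -d k ∈ Sl := by
  by_cases h : (d k).re = 0
  · left; rw [neg_im]; linarith [hx k h]
  · right; rwa [neg_re, neg_ne_zero]

theorem OK_empty (hd : Sd d) {x : ℂ} (hx : x ∈ ZZ e) :
    H857.OK ∅ (thp e d) x ∧ ∀ l, thp e d l ≠ x := by
  have key : ∀ l, (thp e d l).re = x.re → (thp e d l).im < x.im := by
    intro l h
    have h1 := re_thp (e := e) hd l
    have h2 := abs_lt.1 (im_thp (e := e) hd l)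
    rw [h] at h1
    rcases hx (pr l) with h3 | h3
    · exact absurd h1 (lt_asymm h3)
    · linarith [h2.2]
  refine ⟨⟨fun l hl => absurd hl (Finset.notMem_empty l), fun l _ h => ⟨fun h' =>
    absurd h' (Finset.notMem_empty l), fun _ => key l h⟩⟩, fun l h => ?_⟩
  exact absurd (congrArg im h) (key l (congrArg re h)).ne

/-- **the core** -/
theorem P_core (S : Stms) (he : SpR e) (hd : Sd d) (h0 : ∀ k, d k ≠ 0) {m : ℕ} (hm : m ≤ 1)
    {x : ℂ} (hx : x ∈ ZZ e) : H857.P m ∅ (thp e d) x = QQ e d m x := by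
  have hb := thp_inj (e := e) he hd h0
  refine eq_QQ he hd hm (Q := H857.P m ∅ (thp e d)) (fun x hx => ?_)
    (P_tendsto_inf S.inf hm hb) hx
  obtain ⟨h1, h2⟩ := OK_empty hd hx
  have := (S.hol m ∅ (thp e d) x hm hb h2 h1).2
  rwa [sq857] at this

/-- **the neck** -/
theorem P_neck_eq (S : Stms) (he : SpR e) (hd : Sd d) (h0 : ∀ k, d k ≠ 0) {m : ℕ} (hm : m ≤ 1)
    {k : Fin 3} {z : ℂ} (hz : z ∈ H598.Dom (d k) ∩ Sq (3 / 10)) :
    H857.P m (H857.lo (jl k)) (thp e d) (e k + z) =
      NN (hn (eC e) (dsq d) m k) (3 / 2) (d k) z + kp (eC e) (dsq d) (ell e) m k := by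
  have h1 := P_neck S.hol he hd h0 hm hz (quarter_mem hd k)
  have hx : |((e k : ℂ) + 1 / 4).re - e k| < 3 / 10 := by
    have : ((e k : ℂ) + 1 / 4).re - e k = 1 / 4 := by rw [add_re, ofReal_re]; norm_num
    rw [this]; norm_num
  have hZ : (e k : ℂ) + 1 / 4 ∈ ZZ e := by
    intro l
    left
    by_cases hl : l = k
    · subst hl
      have : ((e l : ℂ) + 1 / 4).re - e l = 1 / 4 := by rw [add_re, ofReal_re]; norm_num
      rw [this]; norm_num
    · exact far_re he hl hx
  have h2 : H857.P m (H857.lo (jl k)) (thp e d) (e k + 1 / 4) =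
      H857.P m ∅ (thp e d) (e k + 1 / 4) := by
    refine P_left S.flipR hm (thp_inj he hd h0) (fun l h => ?_) _ fun l hl => left_neck he hd hx hl
    have h3 := pr_of_re he hd hx h
    have h4 := abs_lt.1 (re_thp (e := e) hd l)
    have h5 : ((e k : ℂ) + 1 / 4).re = e k + 1 / 4 := by rw [add_re, ofReal_re]; norm_num
    rw [h, h5, h3] at h4
    linarith [h4.2]
  rw [h2, P_core S he hd h0 hm hZ] at h1
  have h3 := QQ_quarter he hd (m := m) k
  linear_combination h1 + h3

theorem tendsto_add_const (c : ℂ) {f : ℂ → ℂ} {s t : Set ℂ} {z a : ℂ}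
    (h : Tendsto f (𝓝[t] (c + z)) (𝓝 a)) (hs : ∀ w ∈ s, c + w ∈ t) :
    Tendsto (fun w => f (c + w)) (𝓝[s] z) (𝓝 a) := by
  refine h.comp (tendsto_nhdsWithin_of_tendsto_nhds_of_eventually_within _ ?_ ?_)
  · exact ((continuous_const.add continuous_id).tendsto z).mono_left nhdsWithin_le_nhds
  · filter_upwards [self_mem_nhdsWithin] with w hw using hs w hw

theorem root_mem_Sq (hd : Sd d) (k : Fin 3) : Sq (3 / 10) ∈ 𝓝 (d k) ∧ Sq (3 / 10) ∈ 𝓝 (-d k) := by
  have h1 := (abs_re_le_norm (d k)).trans_lt (hd k)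
  have h2 := (abs_im_le_norm (d k)).trans_lt (hd k)
  constructor
  · exact (H598.isOpen_Sq _).mem_nhds ⟨h1.trans (by norm_num), h2.trans (by norm_num)⟩
  · refine (H598.isOpen_Sq _).mem_nhds ⟨?_, ?_⟩
    · rw [neg_re, abs_neg]; exact h1.trans (by norm_num)
    · rw [neg_im, abs_neg]; exact h2.trans (by norm_num)

theorem hn_cont (he : SpR e) (hd : Sd d) (m : ℕ) (k : Fin 3) :
    ContinuousOn (hn (eC e) (dsq d) m k) (sphere 0 (3 / 2)) := by
  refine (H517.hn_diff he.sep hd.sm m k).continuousOn.mono fun z hz => ?_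
  rw [mem_sphere_zero_iff_norm] at hz
  rw [mem_ball_zero_iff, hz]
  norm_num

theorem small_lt (hd : Sd d) (k : Fin 3) : ‖d k‖ < 3 / 2 := (hd k).trans (by norm_num)

theorem c0_eq (he : SpR e) (hd : Sd d) (m : ℕ) (k : Fin 3) :
    c0 (hn (eC e) (dsq d) m k) (3 / 2) (d k ^ 2) = cm (eC e) (dsq d) m k :=
  (H517.cm_eq_c0 he.sep hd.sm m k).symm

/-- **the half period of the left root** -/
theorem piX_jl (S : Stms) (he : SpR e) (hd : Sd d) (hx : Od d) {m : ℕ} (hm : m ≤ 1) (k : Fin 3) :
    H857.piX m (jl k) (thp e d) =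
      kp (eC e) (dsq d) (ell e) m k + cm (eC e) (dsq d) m k * lg (-d k) := by
  have hb := thp_inj (e := e) he hd hx.ne
  have hre : |(thp e d (jl k)).re - e k| < 3 / 10 := by
    have := re_thp (e := e) hd (jl k)
    rw [pr_jl] at this
    linarith
  have hOK : H857.OK (H857.lo (jl k)) (thp e d) (thp e d (jl k)) := by
    refine OK_jl he hd hre (fun h => absurd rfl h) (fun _ h => ?_)
    rw [thp_jl, thp_jr] at h ⊢
    have h1 : (d k).re = 0 := by
      simp only [sub_re, add_re] at h; linarith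
    have := hx k h1
    simp only [sub_im, add_im]
    linarith
  have t1 := P_tendsto_root S.root hm hb (jl_notMem k) hOK
  rw [thp_jl] at t1
  have t2 : Tendsto (fun z => H857.P m (H857.lo (jl k)) (thp e d) (e k + z))
      (𝓝[H598.Dom (d k)] (-d k)) (𝓝 (H857.piX m (jl k) (thp e d))) := by
    refine tendsto_add_const (e k : ℂ) (s := H598.Dom (d k)) (z := -d k)
      (t := {x | x - (e k - d k) ∈ Sl}) ?_ ?_
    · rw [H857.piX, thp_jl, ← sub_eq_add_neg]
      exact t1
    · intro z hz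
      have : (e k : ℂ) + z - (e k - d k) = z + d k := by ring
      rw [mem_ofPred_eq, this]
      exact hz.1
  have hmem := hx.neg_mem k
  have t3 : Tendsto (NN (hn (eC e) (dsq d) m k) (3 / 2) (d k)) (𝓝[H598.Dom (d k)] (-d k))
      (𝓝 (lg (-d k) • c0 (hn (eC e) (dsq d) m k) (3 / 2) (d k ^ 2))) := by
    have h1 := tendsto_NN_root (h := hn (eC e) (dsq d) m k) (r := 3 / 2) (d := -d k)
      (hn_cont he hd m k) hmem (by rw [norm_neg]; exact small_lt hd k)
    have e1 : NN (hn (eC e) (dsq d) m k) (3 / 2) (-d k) =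
        NN (hn (eC e) (dsq d) m k) (3 / 2) (d k) := by
      funext z
      unfold NN
      rw [XS_neg, neg_sq]
    have e2 : H598.Dom (-d k) = H598.Dom (d k) := by
      ext z
      simp only [H598.Dom, mem_ofPred_eq, sub_neg_eq_add, ← sub_eq_add_neg]
      tauto
    rw [e1, e2, neg_sq] at h1
    exact h1
  have hne : (𝓝[H598.Dom (d k)] (-d k)).NeBot := by
    have h1 := H598.nhdsWithin_Dom_neBot hmem
    have e2 : H598.Dom (-d k) = H598.Dom (d k) := by
      ext z
      simp only [H598.Dom, mem_ofPred_eq, sub_neg_eq_add, ← sub_eq_add_neg]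
      tauto
    rwa [e2] at h1
  have t4 := t3.add_const (kp (eC e) (dsq d) (ell e) m k)
  have hev : (fun z => H857.P m (H857.lo (jl k)) (thp e d) (e k + z)) =ᶠ[𝓝[H598.Dom (d k)] (-d k)]
      fun z => NN (hn (eC e) (dsq d) m k) (3 / 2) (d k) z + kp (eC e) (dsq d) (ell e) m k := by
    filter_upwards [self_mem_nhdsWithin, nhdsWithin_le_nhds (root_mem_Sq hd k).2] with z h1 h2
    exact P_neck_eq S he hd hx.ne hm ⟨h1, h2⟩
  have := tendsto_nhds_unique t2 (t4.congr' hev.symm)
  rw [this, c0_eq he hd, smul_eq_mul]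
  ring

theorem rt_right {z : ℂ} (hz : 0 < z.re) : 0 < (rt z).re ∧ |(rt z).im| < (rt z).re := by
  have h1 := H598.rot_rt_re (mem_Sl_of_re hz.ne')
  have h2 : (rt z).re ^ 2 - (rt z).im ^ 2 = z.re := by
    have := congrArg re (rt_sq z)
    rw [pow_two, mul_re] at this
    rw [← this]; ring
  have h3 : 0 < (rt z).re + (rt z).im := by
    have e1 : exp (-(I * (π / 4))) = ((Real.sqrt 2 / 2 : ℝ) : ℂ) * (1 - I) := by
      have : -(I * (π / 4)) = ((-(Real.pi / 4) : ℝ) : ℂ) * I := by push_cast; ring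
      rw [this, exp_mul_I, ← ofReal_cos, ← ofReal_sin, Real.cos_neg, Real.sin_neg,
        Real.cos_pi_div_four, Real.sin_pi_div_four]
      push_cast
      ring
    rw [e1, mul_assoc, re_ofReal_mul] at h1
    have h4 : ((1 - I) * rt z).re = (rt z).re + (rt z).im := by
      simp [sub_mul]
    rw [h4] at h1
    exact pos_of_mul_pos_right h1 (by positivity)
  have h5 : |(rt z).im| < |(rt z).re| := by
    rw [← sq_lt_sq]
    linarith
  have h6 : 0 < (rt z).re := by
    by_contra h
    rw [abs_of_nonpos (not_lt.1 h)] at h5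
    have := (abs_lt.1 h5).2
    linarith
  rw [abs_of_pos h6] at h5
  exact ⟨h6, h5⟩

theorem XS_right {c z : ℂ} (h1 : 0 < (z + c).re) (h2 : 0 < (z - c).re) : 0 < (XS c z).re := by
  obtain ⟨a1, a2⟩ := rt_right h1
  obtain ⟨b1, b2⟩ := rt_right h2
  have h3 : XS c z = (rt (z + c) + rt (z - c)) ^ 2 / 2 := by
    unfold XS sg
    have e1 := rt_sq (z + c)
    have e2 := rt_sq (z - c)
    linear_combination (-1 / 2) * e1 + (-1 / 2) * e2
  set v := rt (z + c) + rt (z - c)
  have h4 : |v.im| < v.re := by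
    refine (abs_add_le _ _).trans_lt ?_
    simp only [v, add_re]
    linarith
  have h5 : (v ^ 2 / 2).re = (v.re ^ 2 - v.im ^ 2) / 2 := by
    have : v ^ 2 / 2 = ((1 / 2 : ℝ) : ℂ) * (v * v) := by push_cast; ring
    rw [this, re_ofReal_mul, mul_re]
    ring
  rw [h3, h5]
  have h6 : v.im ^ 2 < v.re ^ 2 := sq_lt_sq' (by linarith [(abs_lt.1 h4).1]) (abs_lt.1 h4).2
  linarith

/-- the limit at the root `c` from the right -/
theorem tendsto_NN_right {h : ℂ → ℂ} {r : ℝ} (hh : ContinuousOn h (sphere 0 r)) {c : ℂ}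
    (hc : 0 ≤ c.re) (h0 : c ≠ 0) (hr : ‖c‖ < r) :
    Tendsto (NN h r c) (𝓝[{z | c.re < z.re}] c) (𝓝 (log c • c0 h r (c ^ 2))) := by
  have hr0 : 0 < r := lt_of_le_of_lt (norm_nonneg _) hr
  have hε : ‖c ^ 2‖ < r ^ 2 := by
    rw [norm_pow]
    exact pow_lt_pow_left₀ hr (norm_nonneg _) two_ne_zero
  have hsub : {z : ℂ | c.re < z.re} ⊆ H598.Dom c := by
    intro z hz
    have hz' : c.re < z.re := hz
    refine ⟨Or.inr ?_, Or.inr ?_⟩
    · rw [add_re]; linarith
    · rw [sub_re]; linarith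
  have hle : 𝓝[{z : ℂ | c.re < z.re}] c ≤ 𝓝[H598.Dom c] c := nhdsWithin_mono _ hsub
  have hid : Tendsto (fun z : ℂ => z) (𝓝[{z | c.re < z.re}] c) (𝓝 c) :=
    tendsto_id.mono_left nhdsWithin_le_nhds
  have hsg := (H598.tendsto_sg_root c).mono_left hle
  have hX : Tendsto (XS c) (𝓝[{z | c.re < z.re}] c) (𝓝 c) := by
    have := hid.add hsg
    rw [add_zero] at this
    exact this
  have hY : Tendsto (fun z => c ^ 2 / XS c z) (𝓝[{z | c.re < z.re}] c) (𝓝 c) := by
    have h1 := hid.sub hsg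
    rw [sub_zero] at h1
    refine h1.congr' ?_
    filter_upwards [self_mem_nhdsWithin] with z hz
    exact (H598.div_XS (hsub hz)).symm
  have hslit : c ∈ slitPlane := by
    rcases hc.lt_or_eq with h | h
    · exact Or.inl h
    · refine Or.inr fun h1 => h0 (Complex.ext h.symm h1)
  have hP : ContinuousAt (fun X => P0 h r X (c ^ 2)) c :=
    (H598.hasDerivAt_P0 hh hr hε).continuousAt
  have h1 : Tendsto (fun z => lg (XS c z)) (𝓝[{z | c.re < z.re}] c) (𝓝 (log c)) := by
    refine (((continuousAt_clog hslit).tendsto.comp hX)).congr' ?_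
    filter_upwards [self_mem_nhdsWithin] with z hz
    have hz' : c.re < z.re := hz
    refine (lg_eq_log (XS_right ?_ ?_)).symm
    · rw [add_re]; linarith
    · rw [sub_re]; linarith
  have h2 := (hP.tendsto.comp hX).sub (hP.tendsto.comp hY)
  have h3 := (h1.smul_const (c0 h r (c ^ 2))).add h2
  rw [sub_self, add_zero] at h3
  exact h3

theorem lg_neg_right {c : ℂ} (hc : 0 ≤ c.re) (ht : c.re = 0 → c.im < 0) (h0 : c ≠ 0) :
    lg (-c) = log c + π * I := by
  have h1 : -I * -c = I * c := by ring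
  have h2 : log (I * c) = log I + log c := by
    refine (log_mul_eq_add_log_iff I_ne_zero h0).2 ?_
    rw [arg_I]
    have h3 : arg c < π / 2 := by
      rcases hc.lt_or_eq with h | h
      · exact (abs_lt.1 (abs_arg_lt_pi_div_two_iff.2 (Or.inl h))).2
      · exact arg_lt_pi_div_two_iff.2 (Or.inr (Or.inl (ht h.symm)))
    have h4 := neg_pi_lt_arg c
    constructor
    · linarith [Real.pi_pos]
    · linarith [Real.pi_pos]
  rw [lg, h1, h2, log_I]
  ring

theorem lg_neg_left {c : ℂ} (hc : c.re < 0) : lg c = lg (-c) + π * I := by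
  have h1 : 0 < (-c).re := by rw [neg_re]; linarith
  have h2 := lg_neg_right (c := -c) h1.le (fun h => absurd h h1.ne') (by
    intro h
    rw [h] at h1
    simp at h1)
  rw [neg_neg] at h2
  rw [h2, lg_eq_log h1]

/-- **the half period of the right root** -/
theorem piX_jr (S : Stms) (he : SpR e) (hd : Sd d) (hx : Od d) {m : ℕ} (hm : m ≤ 1) (k : Fin 3) :
    H857.piX m (jr k) (thp e d) =
      kp (eC e) (dsq d) (ell e) m k + cm (eC e) (dsq d) m k * (lg (-d k) - π * I) := by
  have hb := thp_inj (e := e) he hd hx.ne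
  have hre : |(thp e d (jr k)).re - e k| < 3 / 10 := by
    have := re_thp (e := e) hd (jr k)
    rw [pr_jr] at this
    linarith
  have hOK : H857.OK (H857.lo (jr k)) (thp e d) (thp e d (jr k)) := by
    refine OK_jr he hd hre (hx k) (fun _ h => ?_) (fun h => absurd rfl h)
    rw [thp_jl, thp_jr] at h ⊢
    have h1 : (d k).re = 0 := by
      simp only [sub_re, add_re] at h; linarith
    have := hx k h1
    simp only [sub_im, add_im]
    linarith
  rcases lt_or_ge (d k).re 0 with hneg | hpos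
  · -- the right root is on the left: one flip
    have hdS : d k ∈ Sl := Or.inr hneg.ne
    have hlt : (thp e d (jr k)).re < (thp e d (jl k)).re := by
      rw [thp_jl, thp_jr]
      simp only [sub_re, add_re]
      linarith
    have hOK2 : H857.OK (H857.lo (jl k)) (thp e d) (thp e d (jr k)) :=
      OK_jl he hd hre (fun _ h => absurd h hlt.ne') (fun h => absurd rfl h)
    have h1 := S.flipL m (H857.lo (jl k)) (thp e d) (thp e d (jr k)) (jl k) hm hb (jl_notMem k)
      hOK2 (by rw [← lo_jr]; exact hOK) hlt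
    rw [← lo_jr] at h1
    have h2 := piX_jl S he hd hx hm k
    have t1 := P_tendsto_root S.root hm hb (jr_notMem' k) hOK2
    rw [thp_jr] at t1
    have t2 : Tendsto (fun z => H857.P m (H857.lo (jl k)) (thp e d) (e k + z))
        (𝓝[H598.Dom (d k)] (d k))
        (𝓝 (H857.P m (H857.lo (jl k)) (thp e d) (thp e d (jr k)))) := by
      refine tendsto_add_const (e k : ℂ) (s := H598.Dom (d k)) (z := d k)
        (t := {x | x - (e k + d k) ∈ Sl}) ?_ ?_
      · rw [thp_jr]
        exact t1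
      · intro z hz
        have : (e k : ℂ) + z - (e k + d k) = z - d k := by ring
        rw [mem_ofPred_eq, this]
        exact hz.2
    have t3 := (tendsto_NN_root (h := hn (eC e) (dsq d) m k) (r := 3 / 2) (d := d k)
      (hn_cont he hd m k) hdS (small_lt hd k)).add_const (kp (eC e) (dsq d) (ell e) m k)
    have hne := H598.nhdsWithin_Dom_neBot hdS
    have hev : (fun z => H857.P m (H857.lo (jl k)) (thp e d) (e k + z)) =ᶠ[𝓝[H598.Dom (d k)] (d k)]
        fun z => NN (hn (eC e) (dsq d) m k) (3 / 2) (d k) z + kp (eC e) (dsq d) (ell e) m k := by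
      filter_upwards [self_mem_nhdsWithin, nhdsWithin_le_nhds (root_mem_Sq hd k).1] with z h1 h2
      exact P_neck_eq S he hd hx.ne hm ⟨h1, h2⟩
    have h3 := tendsto_nhds_unique t2 (t3.congr' hev.symm)
    rw [c0_eq he hd, smul_eq_mul, lg_neg_left hneg] at h3
    rw [H857.piX] at h2 ⊢
    linear_combination h1 + 2 * h2 - h3
  · -- approach from the right
    have t1 := P_tendsto_root S.root hm hb (jr_notMem k) hOK
    rw [thp_jr] at t1
    have t2 : Tendsto (fun z => H857.P m (H857.lo (jr k)) (thp e d) (e k + z))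
        (𝓝[{z | (d k).re < z.re}] (d k)) (𝓝 (H857.piX m (jr k) (thp e d))) := by
      refine tendsto_add_const (e k : ℂ) (s := {z | (d k).re < z.re}) (z := d k)
        (t := {x | x - (e k + d k) ∈ Sl}) ?_ ?_
      · rw [H857.piX, thp_jr]
        exact t1
      · intro z hz
        have hz' : (d k).re < z.re := hz
        have : (e k : ℂ) + z - (e k + d k) = z - d k := by ring
        rw [mem_ofPred_eq, this]
        refine Or.inr ?_
        rw [sub_re]; linarith
    have t3 := (tendsto_NN_right (h := hn (eC e) (dsq d) m k) (r := 3 / 2) (c := d k)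
      (hn_cont he hd m k) hpos (hx.ne k) (small_lt hd k)).add_const
        (kp (eC e) (dsq d) (ell e) m k)
    have hne : (𝓝[{z : ℂ | (d k).re < z.re}] (d k)).NeBot := by
      rw [← mem_closure_iff_nhdsWithin_neBot, Metric.mem_closure_iff]
      intro ε hε
      refine ⟨d k + (ε / 2 : ℝ), ?_, ?_⟩
      · show (d k).re < (d k + (ε / 2 : ℝ)).re
        rw [add_re, ofReal_re]; linarith
      · rw [dist_eq_norm, sub_add_cancel_left, norm_neg, Complex.norm_real, Real.norm_eq_abs,
          abs_of_pos (by linarith)]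
        linarith
    have hev : (fun z => H857.P m (H857.lo (jr k)) (thp e d) (e k + z))
        =ᶠ[𝓝[{z | (d k).re < z.re}] (d k)]
        fun z => NN (hn (eC e) (dsq d) m k) (3 / 2) (d k) z + kp (eC e) (dsq d) (ell e) m k := by
      filter_upwards [self_mem_nhdsWithin, nhdsWithin_le_nhds (root_mem_Sq hd k).1] with z h1 h2
      have hz' : (d k).re < z.re := h1
      have hD : z ∈ H598.Dom (d k) := by
        refine ⟨Or.inr ?_, Or.inr ?_⟩
        · rw [add_re]; linarith
        · rw [sub_re]; linarith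
      rw [← P_neck_eq S he hd hx.ne hm ⟨hD, h2⟩, lo_jr]
      have hxr : |((e k : ℂ) + z).re - e k| < 3 / 10 := by simpa using h2.1
      have n1 : (thp e d (jl k)).re < ((e k : ℂ) + z).re := by
        rw [thp_jl]
        simp only [sub_re, add_re, ofReal_re]
        linarith
      have n2 : (thp e d (jr k)).re < ((e k : ℂ) + z).re := by
        rw [thp_jr]
        simp only [add_re, ofReal_re]
        linarith
      refine S.flipR m (H857.lo (jl k)) (thp e d) (e k + z) (jl k) hm hb (jl_notMem k)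
        (OK_neck he hd hD h2.1) ?_ n1.le
      rw [← lo_jr]
      exact OK_jr he hd hxr (hx k) (fun _ h => absurd h n1.ne) (fun _ h => absurd h n2.ne)
    have h3 := tendsto_nhds_unique t2 (t3.congr' hev.symm)
    rw [h3, c0_eq he hd, smul_eq_mul, lg_neg_right hpos (hx k) (hx.ne k)]
    ring

end

end Vale.Agent.P273.H908
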