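import Vale.Agent.P273.H908.Max

/-! P273 / H908: the real half periods determine the form (maximum principle on the sphere). -/

namespace Vale.Agent.P273.H908

open Complex Set Filter Topology MeasureTheory
open scoped ContDiff Real

noncomputable section

/-- the primitive of `(a + c x) dx / sq` from `b_j`, coordinate `w` -/
def Ap (j : Fin 6) (a c : ℂ) (b : Rd) (w : ℂ) : ℂ := a * Hp j 0 b w + c * Hp j 1 b w

theorem Ap_neg (j : Fin 6) (a c : ℂ) (b : Rd) (w : ℂ) : Ap j a c b (-w) = -Ap j a c b w := by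
  simp only [Ap, Hp_neg]; ring

@[simp] theorem Ap_zero (j : Fin 6) (a c : ℂ) (b : Rd) : Ap j a c b 0 = 0 := by simp [Ap]

theorem hasDerivAt_Ap {j : Fin 6} {a c : ℂ} {b : Rd} {w : ℂ} (h : (b, w) ∈ St j) :
    HasDerivAt (Ap j a c b) (2 * (a + c * (b j + w ^ 2)) / hj j b (b j + w ^ 2)) w := by
  have := ((hasDerivAt_Hp (k := 0) h).const_mul a).fun_add ((hasDerivAt_Hp (k := 1) h).const_mul c)
  refine this.congr_deriv ?_
  simp only [ig, pow_zero, pow_one]
  ring

theorem Ap_abs_eq {j : Fin 6} {a c : ℂ} {b : Rd} {u v : ℂ} (h : u ^ 2 = v ^ 2) :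
    |(Ap j a c b u).re| = |(Ap j a c b v).re| := by
  rcases sq_eq_sq_iff_eq_or_eq_neg.1 h with h | h
  · rw [h]
  · rw [h, Ap_neg, neg_re, abs_neg]

theorem exists_Tj {b : Rd} (hb : b ∈ OR) (x : ℂ) : ∃ j, x ∈ Tj j b := by
  classical
  by_cases h : ∃ j, (b j).re ≤ x.re
  · obtain ⟨j0, hj0⟩ := h
    set S : Finset (Fin 6) := Finset.univ.filter fun j => (b j).re ≤ x.re with hS
    have hne : S.Nonempty := ⟨j0, by simp [hS, hj0]⟩
    have hm := S.max'_mem hne
    simp only [hS, Finset.mem_filter, Finset.mem_univ, true_and] at hm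
    refine ⟨S.max' hne, fun l hl => (hb hl).trans_le hm, fun l hl => ?_⟩
    by_contra hcon
    have : l ∈ S := by simp [hS, not_lt.1 hcon]
    exact absurd (S.le_max' l this) (not_le.2 hl)
  · push Not at h
    exact ⟨0, fun l hl => absurd hl (Fin.not_lt_zero l), fun l _ => h l⟩

theorem adjacent {b : Rd} {j j' : Fin 6} {x : ℂ} (h : x ∈ Tj j b) (h' : x ∈ Tj j' b)
    (hj : j < j') : ∃ i : Fin 5, j = i.castSucc ∧ j' = i.succ ∧ x ∈ Bt i b := by
  have hlt : j.val + 1 = j'.val := by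
    by_contra hne
    have h1 : j.val + 1 < j'.val := by
      have := Fin.lt_def.1 hj; omega
    have h2 : j.val + 1 < 6 := by have := j'.isLt; omega
    have e1 := h.2 ⟨j.val + 1, h2⟩ (by rw [Fin.lt_def]; simp)
    have e2 := h'.1 ⟨j.val + 1, h2⟩ (by rw [Fin.lt_def]; simpa using h1)
    exact lt_asymm e1 e2
  have h5 : j.val < 5 := by have := j'.isLt; omega
  refine ⟨⟨j.val, h5⟩, ?_, ?_, ?_, ?_⟩
  · ext; simp
  · ext; simp [hlt]
  · have := h'.1 j hj
    simpa using this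
  · have e := h.2 j' hj
    have : (⟨j.val, h5⟩ : Fin 5).succ = j' := by ext; simp [hlt]
    rw [this]; exact e

/-- all real half periods of `(a + c x) dx / y` vanish -/
def PZ (a c : ℂ) (b : Rd) : Prop := ∀ i : Fin 5, (a * Jp i 0 b + c * Jp i 1 b).re = 0

theorem re_indep {b : Rd} (hb : b ∈ OR) {a c : ℂ} (hP : PZ a c b) {j j' : Fin 6} {x : ℂ}
    (h : x ∈ Tj j b) (h' : x ∈ Tj j' b) :
    (Ap j a c b (rt (x - b j))).re = (Ap j' a c b (rt (x - b j'))).re := by
  wlog hlt : j < j' generalizing j j'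
  · rcases lt_trichotomy j j' with h1 | h1 | h1
    · exact absurd h1 hlt
    · rw [h1]
    · exact (this h' h h1).symm
  obtain ⟨i, rfl, rfl, hx⟩ := adjacent h h' hlt
  have e0 := Gp_sub (k := 0) hb hx
  have e1 := Gp_sub (k := 1) hb hx
  have e2 := hP i
  have e3 : Ap i.castSucc a c b (rt (x - b i.castSucc)) - Ap i.succ a c b (rt (x - b i.succ))
      = a * Jp i 0 b + c * Jp i 1 b := by
    rw [← e0, ← e1]; simp only [Ap, Gp]; ring
  have e4 := congrArg Complex.re e3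
  rw [sub_re, e2] at e4
  linarith

/-- the modulus of the potential, on the whole plane -/
def Mv {b : Rd} (hb : b ∈ OR) (a c : ℂ) (x : ℂ) : ℝ :=
  |(Ap (exists_Tj hb x).choose a c b (rt (x - b (exists_Tj hb x).choose))).re|

theorem Mv_eq {b : Rd} (hb : b ∈ OR) {a c : ℂ} (hP : PZ a c b) {j : Fin 6} {x : ℂ}
    (h : x ∈ Tj j b) : Mv hb a c x = |(Ap j a c b (rt (x - b j))).re| := by
  rw [Mv, re_indep hb hP (exists_Tj hb x).choose_spec h]

theorem Mv_nonneg {b : Rd} (hb : b ∈ OR) (a c : ℂ) (x : ℂ) : 0 ≤ Mv hb a c x := abs_nonneg _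

theorem Mv_root {b : Rd} (hb : b ∈ OR) {a c : ℂ} (hP : PZ a c b) (j : Fin 6) :
    Mv hb a c (b j) = 0 := by
  rw [Mv_eq hb hP (self_mem_Tj hb j)]; simp

/-- near every point there is a holomorphic branch of the square root -/
theorem exists_branch {z : ℂ} (hz : z ≠ 0) : ∃ ρ : ℂ → ℂ, (∀ z, ρ z ^ 2 = z) ∧
    ∀ᶠ y in 𝓝 z, DifferentiableAt ℂ ρ y := by
  by_cases h : z ∈ Sl
  · exact ⟨rt, rt_sq, (isOpen_Sl.eventually_mem h).mono fun y hy => differentiableAt_rt hy⟩
  · have h1 : -z ∈ Sl := by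
      simp only [Sl, mem_ofPred_eq, not_or, not_lt, not_not] at h
      left
      rcases h.1.eq_or_lt with h2 | h2
      · exact absurd (Complex.ext h.2 h2) hz
      · simpa using h2
    refine ⟨fun y => I * rt (-y), fun y => ?_, ?_⟩
    · rw [mul_pow, rt_sq, I_sq]; ring
    · have h2 : ∀ᶠ y in 𝓝 z, -y ∈ Sl := by
        have : IsOpen {y : ℂ | -y ∈ Sl} := isOpen_Sl.preimage continuous_neg
        exact this.eventually_mem h1
      filter_upwards [h2] with y hy
      have h3 : DifferentiableAt ℂ (fun y : ℂ => -y) y := by fun_prop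
      exact (DifferentiableAt.comp (g := rt) (f := fun y : ℂ => -y) y (differentiableAt_rt hy)
        h3).const_mul I

theorem norm_sq_root {u z : ℂ} (h : u ^ 2 = z) : ‖u‖ = ‖rt z‖ := by
  have : ‖u‖ ^ 2 = ‖rt z‖ ^ 2 := by rw [← norm_pow, ← norm_pow, h, rt_sq]
  exact (sq_eq_sq₀ (norm_nonneg _) (norm_nonneg _)).1 this

/-- local representation of the modulus of the potential -/
theorem Mv_local {b : Rd} (hb : b ∈ OR) {a c : ℂ} (hP : PZ a c b) {x₀ : ℂ}
    (hx : ∀ j, x₀ ≠ b j) : ∃ Φ D : ℂ → ℂ, ∀ᶠ x in 𝓝 x₀, HasDerivAt Φ (D x) x ∧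
      Mv hb a c x = |(Φ x).re| ∧ ‖D x‖ = ‖a + c * x‖ / ‖sq b x‖ := by
  obtain ⟨j, hxj⟩ := exists_Tj hb x₀
  obtain ⟨ρ, hρ, hd⟩ := exists_branch (sub_ne_zero.2 (hx j))
  refine ⟨fun x => Ap j a c b (ρ (x - b j)), fun x => 2 * (a + c * x) / hj j b x *
    deriv ρ (x - b j), ?_⟩
  have h1 : ∀ᶠ x in 𝓝 x₀, DifferentiableAt ℂ ρ (x - b j) := by
    have : Tendsto (fun x => x - b j) (𝓝 x₀) (𝓝 (x₀ - b j)) :=
      (continuous_sub_right _).tendsto _
    exact this.eventually hd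
  have h2 : ∀ᶠ x in 𝓝 x₀, x ∈ Tj j b := (isOpen_Tj j b).eventually_mem hxj
  have h3 : ∀ᶠ x in 𝓝 x₀, x ≠ b j := isOpen_ne.eventually_mem (hx j)
  filter_upwards [h1, h2, h3] with x hx1 hx2 hx3
  have e1 : b j + ρ (x - b j) ^ 2 = x := by rw [hρ]; ring
  refine ⟨?_, ?_, ?_⟩
  · have h4 : (b, ρ (x - b j)) ∈ St j := by rw [mem_St_iff hb, e1]; exact hx2
    have h5 := hasDerivAt_Ap (a := a) (c := c) h4
    have h6 : HasDerivAt (fun x : ℂ => ρ (x - b j)) (deriv ρ (x - b j)) x := by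
      simpa using hx1.hasDerivAt.comp_sub_const x (b j)
    have h7 := HasDerivAt.comp x h5 h6
    rw [e1] at h7
    exact h7
  · rw [Mv_eq hb hP hx2]
    exact Ap_abs_eq (by rw [rt_sq, hρ])
  · have h4 : 2 * ρ (x - b j) * deriv ρ (x - b j) = 1 := by
      have h5 := hx1.hasDerivAt.fun_pow 2
      have h6 : HasDerivAt (fun z => ρ z ^ 2) 1 (x - b j) := by
        simpa only [hρ] using hasDerivAt_id' (x - b j)
      have := h5.unique h6
      simpa using this
    have h0 : ρ (x - b j) ≠ 0 := by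
      intro h; rw [h] at h4; simp at h4
    have h5 : deriv ρ (x - b j) = 1 / (2 * ρ (x - b j)) := by
      rw [eq_div_iff (mul_ne_zero two_ne_zero h0)]; linear_combination h4
    rw [h5, sq_eq j, norm_mul, norm_div, norm_mul, norm_div, norm_one, norm_mul, norm_mul,
      norm_sq_root (hρ (x - b j))]
    have h6 : ‖(2 : ℂ)‖ = 2 := by simp
    have h7 : ‖rt (x - b j)‖ ≠ 0 := norm_ne_zero_iff.2 (rt_ne_zero (sub_ne_zero.2 hx3))
    have h8 : ‖hj j b x‖ ≠ 0 := norm_ne_zero_iff.2 (hj_ne_zero hx2)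
    rw [h6]
    field_simp

theorem continuous_Mv {b : Rd} (hb : b ∈ OR) {a c : ℂ} (hP : PZ a c b) :
    Continuous (Mv hb a c) := by
  rw [continuous_iff_continuousAt]
  intro x
  by_cases h : ∀ j, x ≠ b j
  · obtain ⟨Φ, D, hΦ⟩ := Mv_local hb hP h
    have h1 : ContinuousAt (fun x => |(Φ x).re|) x :=
      (continuous_re.continuousAt.comp hΦ.self_of_nhds.1.continuousAt).abs
    exact h1.congr (hΦ.mono fun y hy => hy.2.1.symm)
  · push Not at h
    obtain ⟨j, rfl⟩ := h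
    have h1 : ContinuousAt (fun x => |(Ap j a c b (rt (x - b j))).re|) (b j) := by
      have h2 : ContinuousAt (fun x => rt (x - b j)) (b j) := by
        have h3 : ContinuousAt rt (b j - b j) := by rw [sub_self]; exact continuousAt_rt_zero
        exact ContinuousAt.comp (f := fun x : ℂ => x - b j) h3 (by fun_prop)
      have h4 : (b, (0 : ℂ)) ∈ St j := by
        rw [mem_St_iff hb]; simpa using self_mem_Tj hb j
      have h5 : ContinuousAt (Ap j a c b) (rt (b j - b j)) := by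
        rw [sub_self, rt_zero]; exact (hasDerivAt_Ap h4).continuousAt
      exact (continuous_re.continuousAt.comp (h5.comp (f := fun x => rt (x - b j)) h2)).abs
    refine h1.congr ?_
    filter_upwards [(isOpen_Tj j b).eventually_mem (self_mem_Tj hb j)] with y hy
    exact (Mv_eq hb hP hy).symm

theorem pot_Mv {b : Rd} (hb : b ∈ OR) {a c : ℂ} (hP : PZ a c b) : Pot b a c (Mv hb a c) :=
  ⟨continuous_Mv hb hP, Mv_root hb hP, fun _ hx => Mv_local hb hP hx⟩

/-- **(P2)**: a form all of whose real half periods vanish is zero -/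
theorem nondeg {b : Rd} (hb : b ∈ OR) {a c : ℂ} (hP : PZ a c b) : a = 0 ∧ c = 0 :=
  (pot_Mv hb hP).nondeg

end

end Vale.Agent.P273.H908
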