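import Vale.Agent.P273.H908.Prim

/-! P273 / H908: half periods of `x^k dx / sq` between consecutive roots. -/

namespace Vale.Agent.P273.H908

open Complex Set Filter Topology MeasureTheory
open scoped ContDiff Real

noncomputable section

theorem isOpen_OR : IsOpen OR := by
  have h : OR = ⋂ i : Fin 6, ⋂ j : Fin 6, {b : Rd | i < j → (b i).re < (b j).re} := by
    ext b
    simp only [OR, mem_ofPred_eq, mem_iInter]
    exact ⟨fun h i j hij => h hij, fun h i j hij => h i j hij⟩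
  rw [h]
  refine isOpen_iInter_of_finite fun i => isOpen_iInter_of_finite fun j => ?_
  by_cases hij : i < j
  · simpa [hij] using isOpen_lt (by fun_prop : Continuous fun b : Rd => (b i).re)
      (by fun_prop : Continuous fun b : Rd => (b j).re)
  · simp [hij]

/-- the primitive from `b_j` as a function of `x` -/
def Gp (j : Fin 6) (k : ℕ) (b : Rd) (x : ℂ) : ℂ := Hp j k b (rt (x - b j))

theorem add_rt_sq (b x : ℂ) : b + rt (x - b) ^ 2 = x := by rw [rt_sq]; ring

theorem mem_St_rt {j : Fin 6} {b : Rd} (hb : b ∈ OR) {x : ℂ} (hx : x ∈ Tj j b) :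
    (b, rt (x - b j)) ∈ St j := by
  rw [mem_St_iff hb, add_rt_sq]; exact hx

theorem hasDerivAt_Gp {j : Fin 6} {k : ℕ} {b : Rd} (hb : b ∈ OR) {x : ℂ} (hx : x ∈ Tj j b)
    (hs : x - b j ∈ Sl) : HasDerivAt (Gp j k b) (x ^ k / sq b x) x := by
  have h1 := hasDerivAt_Hp (k := k) (mem_St_rt hb hx)
  have h2 : HasDerivAt (fun x : ℂ => rt (x - b j)) (1 / (2 * rt (x - b j))) x := by
    simpa using (hasDerivAt_rt hs).comp_sub_const x (b j)
  have h3 := HasDerivAt.comp x h1 h2
  refine h3.congr_deriv ?_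
  rw [ig, add_rt_sq, sq_eq j]
  have h4 := rt_ne_zero (Sl_ne_zero hs)
  have h5 := hj_ne_zero hx
  field_simp

/-- the open vertical strip between two consecutive roots -/
def Bt (j : Fin 5) (b : Rd) : Set ℂ := {x | (b j.castSucc).re < x.re ∧ x.re < (b j.succ).re}

theorem Bt_sub_left {j : Fin 5} {b : Rd} (hb : b ∈ OR) : Bt j b ⊆ Tj j.castSucc b := by
  rintro x ⟨h1, h2⟩
  refine ⟨fun l hl => (hb hl).trans h1, fun l hl => ?_⟩
  have hl' : j.succ ≤ l := by
    rw [Fin.le_def]; rw [Fin.lt_def] at hl; simp at hl ⊢; omega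
  exact h2.trans_le (hb.monotone hl')

theorem Bt_sub_right {j : Fin 5} {b : Rd} (hb : b ∈ OR) : Bt j b ⊆ Tj j.succ b := by
  rintro x ⟨h1, h2⟩
  refine ⟨fun l hl => ?_, fun l hl => h2.trans (hb hl)⟩
  have hl' : l ≤ j.castSucc := by
    rw [Fin.le_def]; rw [Fin.lt_def] at hl; simp at hl ⊢; omega
  exact (hb.monotone hl').trans_lt h1

theorem isOpen_Bt (j : Fin 5) (b : Rd) : IsOpen (Bt j b) :=
  (isOpen_lt continuous_const continuous_re).inter (isOpen_lt continuous_re continuous_const)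

theorem convex_Bt (j : Fin 5) (b : Rd) : Convex ℝ (Bt j b) := by
  have : Bt j b = Complex.re ⁻¹' Ioo (b j.castSucc).re (b j.succ).re := rfl
  rw [this]
  exact (convex_Ioo _ _).linear_preimage Complex.reLm

/-- middle point -/
def mid (j : Fin 5) (b : Rd) : ℂ := (b j.castSucc + b j.succ) / 2

theorem mid_mem {j : Fin 5} {b : Rd} (hb : b ∈ OR) : mid j b ∈ Bt j b := by
  have h : (b j.castSucc).re < (b j.succ).re := hb (Fin.castSucc_lt_succ)
  have e : (mid j b).re = ((b j.castSucc).re + (b j.succ).re) / 2 := by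
    simp [mid]
  constructor <;> rw [e] <;> linarith

/-- **the half period** `int_(b_j)^(b_(j+1)) x^k dx / sq` -/
def Jp (j : Fin 5) (k : ℕ) (b : Rd) : ℂ :=
  Gp j.castSucc k b (mid j b) - Gp j.succ k b (mid j b)

/-- the two primitives differ by the half period in the strip between the roots -/
theorem Gp_sub {j : Fin 5} {k : ℕ} {b : Rd} (hb : b ∈ OR) {x : ℂ} (hx : x ∈ Bt j b) :
    Gp j.castSucc k b x - Gp j.succ k b x = Jp j k b := by
  have hd : ∀ y ∈ Bt j b, HasDerivAt (fun y => Gp j.castSucc k b y - Gp j.succ k b y) 0 y := by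
    intro y hy
    have h1 : y - b j.castSucc ∈ Sl := by
      right; rw [sub_re]; exact (sub_pos.2 hy.1).ne'
    have h2 : y - b j.succ ∈ Sl := by
      right; rw [sub_re]; exact (sub_neg.2 hy.2).ne
    have := (hasDerivAt_Gp (k := k) hb (Bt_sub_left hb hy) h1).fun_sub
      (hasDerivAt_Gp (k := k) hb (Bt_sub_right hb hy) h2)
    exact this.congr_deriv (sub_self _)
  exact (isOpen_Bt j b).is_const_of_deriv_eq_zero (convex_Bt j b).isPreconnected
    (fun y hy => (hd y hy).differentiableAt.differentiableWithinAt)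
    (fun y hy => (hd y hy).deriv) hx (mid_mem hb)

theorem contDiffOn_Gp (j : Fin 6) (k : ℕ) : ContDiffOn ℝ ∞ (fun p : Rd × ℂ => Gp j k p.1 p.2)
    {p | p.1 ∈ OR ∧ p.2 ∈ Tj j p.1 ∧ p.2 - p.1 j ∈ Sl} := by
  unfold Gp
  have h1 : ContDiffOn ℝ ∞ (fun p : Rd × ℂ => rt (p.2 - p.1 j))
      {p | p.1 ∈ OR ∧ p.2 ∈ Tj j p.1 ∧ p.2 - p.1 j ∈ Sl} := by
    refine contDiffOn_rt_real.comp (f := fun p : Rd × ℂ => p.2 - p.1 j) ?_ fun p hp => hp.2.2
    exact (by fun_prop : ContDiff ℝ ∞ fun p : Rd × ℂ => p.2 - p.1 j).contDiffOn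
  have h2 : ContDiffOn ℝ ∞ (fun p : Rd × ℂ => (p.1, rt (p.2 - p.1 j)))
      {p | p.1 ∈ OR ∧ p.2 ∈ Tj j p.1 ∧ p.2 - p.1 j ∈ Sl} := contDiff_fst.contDiffOn.prodMk h1
  exact (contDiffOn_Hp j k).comp h2 fun p hp => mem_St_rt hp.1 hp.2.1

theorem contDiffOn_Jp (j : Fin 5) (k : ℕ) : ContDiffOn ℝ ∞ (Jp j k) OR := by
  unfold Jp
  have hm : ContDiff ℝ ∞ (fun b : Rd => (b, mid j b)) := by
    unfold mid
    have : ContDiff ℝ ∞ (fun b : Rd => (b j.castSucc + b j.succ) / 2) := by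
      simp only [div_eq_mul_inv]
      exact (by fun_prop : ContDiff ℝ ∞ fun b : Rd => (b j.castSucc + b j.succ)).mul
        contDiff_const
    exact contDiff_id.prodMk this
  refine ContDiffOn.sub ?_ ?_
  · refine (contDiffOn_Gp j.castSucc k).comp (f := fun b : Rd => (b, mid j b)) hm.contDiffOn
      fun b hb => ⟨hb, Bt_sub_left hb (mid_mem hb), ?_⟩
    right; rw [sub_re]; exact (sub_pos.2 (mid_mem hb).1).ne'
  · refine (contDiffOn_Gp j.succ k).comp (f := fun b : Rd => (b, mid j b)) hm.contDiffOn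
      fun b hb => ⟨hb, Bt_sub_right hb (mid_mem hb), ?_⟩
    right; rw [sub_re]; exact (sub_neg.2 (mid_mem hb).2).ne

end

end Vale.Agent.P273.H908
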