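import Vale.Agent.P273.H908.Cut
import Vale.Agent.P267.H734.ParInt

/-! P273 / H908: primitives of `x^k dx / s(b,x)` in the coordinate `w = rt (x - b_j)`. -/

namespace Vale.Agent.P273.H908

open Complex Set Filter Topology MeasureTheory
open scoped ContDiff Real

noncomputable section

/-- primitive of a holomorphic function on a star shaped open set -/
theorem star_prim {f : ℂ → ℂ} {W : Set ℂ} (hW : IsOpen W)
    (hst : ∀ w ∈ W, ∀ t ∈ Icc (0 : ℝ) 1, (t : ℂ) * w ∈ W) (hf : DifferentiableOn ℂ f W)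
    {w : ℂ} (hw : w ∈ W) :
    HasDerivAt (fun w => w * ∫ t in (0 : ℝ)..1, f (t * w)) (f w) w := by
  have hf1 : ∀ z ∈ W, HasDerivAt f (deriv f z) z := fun z hz =>
    (hf.differentiableAt (hW.mem_nhds hz)).hasDerivAt
  have hcd : ContinuousOn (deriv f) W := by
    have := (hf.analyticOnNhd hW).deriv
    exact this.continuousOn
  -- the sets in the product
  set V : Set (ℂ × ℝ) := {q | (q.2 : ℂ) * q.1 ∈ W} with hV
  have hVo : IsOpen V := hW.preimage (by fun_prop : Continuous fun q : ℂ × ℝ => (q.2 : ℂ) * q.1)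
  have hc0 : ContinuousOn (fun q : ℂ × ℝ => f (q.2 * q.1)) V :=
    hf.continuousOn.comp (by fun_prop : Continuous fun q : ℂ × ℝ => (q.2 : ℂ) * q.1).continuousOn
      fun q hq => hq
  have hc1 : ContinuousOn (fun q : ℂ × ℝ => (q.2 : ℂ) * deriv f (q.2 * q.1)) V := by
    refine ContinuousOn.mul (by fun_prop) ?_
    exact hcd.comp (by fun_prop : Continuous fun q : ℂ × ℝ => (q.2 : ℂ) * q.1).continuousOn
      fun q hq => hq
  have hwV : ∀ t ∈ Icc (0 : ℝ) 1, (w, t) ∈ V := fun t ht => hst w hw t ht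
  obtain ⟨C, hC⟩ := P267.H734.exists_bound_near hVo hc1 hwV
  obtain ⟨s, hs, hsC⟩ := Filter.eventually_iff_exists_mem.1 hC
  have hI : HasDerivAt (fun z : ℂ => ∫ t in (0 : ℝ)..1, f (t * z))
      (∫ t in (0 : ℝ)..1, (t : ℂ) * deriv f (t * w)) w := by
    refine (intervalIntegral.hasDerivAt_integral_of_dominated_loc_of_deriv_le
      (F := fun z (t : ℝ) => f (t * z)) (F' := fun z (t : ℝ) => (t : ℂ) * deriv f (t * z))
      (bound := fun _ => C) hs ?_ ?_ ?_ ?_ ?_ ?_).2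
    · filter_upwards [hC] with q hq
      have := P267.H734.intervalIntegrable_section hc0 (p := q) fun t ht => (hq t ht).1
      have h2 := this.aestronglyMeasurable
      rwa [uIoc_of_le zero_le_one]
    · exact P267.H734.intervalIntegrable_section hc0 hwV
    · have := P267.H734.intervalIntegrable_section hc1 hwV
      have h2 := this.aestronglyMeasurable
      rwa [uIoc_of_le zero_le_one]
    · refine Eventually.of_forall fun t ht q hq => ?_
      rw [uIoc_of_le zero_le_one] at ht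
      exact (hsC q hq t ⟨ht.1.le, ht.2⟩).2
    · exact intervalIntegrable_const
    · refine Eventually.of_forall fun t ht q hq => ?_
      rw [uIoc_of_le zero_le_one] at ht
      have hqt : (t : ℂ) * q ∈ W := (hsC q hq t ⟨ht.1.le, ht.2⟩).1
      have h1 : HasDerivAt (fun q : ℂ => (t : ℂ) * q) (t : ℂ) q := by
        simpa using (hasDerivAt_id q).const_mul (t : ℂ)
      have := (hf1 _ hqt).comp q h1
      rw [mul_comm] at this
      exact this
  have hP := (hasDerivAt_id' w).fun_mul hI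
  have hI1 : IntervalIntegrable (fun t : ℝ => f (t * w)) volume 0 1 :=
    P267.H734.intervalIntegrable_section hc0 hwV
  have hI2 : IntervalIntegrable (fun t : ℝ => (t : ℂ) * deriv f (t * w)) volume 0 1 :=
    P267.H734.intervalIntegrable_section hc1 hwV
  have key : (∫ t in (0 : ℝ)..1, f (t * w)) + w * ∫ t in (0 : ℝ)..1, (t : ℂ) * deriv f (t * w)
      = f w := by
    rw [← intervalIntegral.integral_const_mul, ← intervalIntegral.integral_add hI1
      (hI2.const_mul w)]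
    have hFTC : ∫ t in (0 : ℝ)..1, (f (t * w) + w * ((t : ℂ) * deriv f (t * w)))
        = (fun t : ℝ => (t : ℂ) * f (t * w)) 1 - (fun t : ℝ => (t : ℂ) * f (t * w)) 0 := by
      refine intervalIntegral.integral_eq_sub_of_hasDerivAt (f := fun t : ℝ => (t : ℂ) * f (t * w))
        ?_ (hI1.add (hI2.const_mul w))
      intro t ht
      rw [uIcc_of_le zero_le_one] at ht
      have h1 : HasDerivAt (fun t : ℝ => (t : ℂ) * w) w t := by
        simpa using (Complex.ofRealCLM.hasDerivAt (x := t)).mul_const w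
      have h2 : HasDerivAt (fun t : ℝ => f (t * w)) (deriv f (t * w) * w) t :=
        (hf1 _ (hst w hw t ht)).comp t h1
      have h3 : HasDerivAt (fun t : ℝ => (t : ℂ)) 1 t := Complex.ofRealCLM.hasDerivAt (x := t)
      exact (h3.fun_mul h2).congr_deriv (by ring)
    rw [hFTC]
    simp
  exact hP.congr_deriv (by rw [← key, one_mul])

/-- the space of the six roots -/
abbrev Rd : Type := Fin 6 → ℂ

/-- roots with strictly increasing real parts -/
def OR : Set Rd := {b | StrictMono fun j => (b j).re}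

/-- `sqrt (prod_(l <> j) (x - b_l))` -/
def hj (j : Fin 6) (b : Rd) (x : ℂ) : ℂ := ∏ l ∈ Finset.univ.erase j, rt (x - b l)

/-- the branch of `sqrt (prod (x - b_l))` on the plane with six downward cuts -/
def sq (b : Rd) (x : ℂ) : ℂ := ∏ l, rt (x - b l)

theorem sq_eq (j : Fin 6) (b : Rd) (x : ℂ) : sq b x = rt (x - b j) * hj j b x :=
  (Finset.mul_prod_erase _ _ (Finset.mem_univ j)).symm

theorem sq_sq (b : Rd) (x : ℂ) : sq b x ^ 2 = ∏ l, (x - b l) := by
  rw [sq, ← Finset.prod_pow]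
  exact Finset.prod_congr rfl fun l _ => rt_sq _

/-- the strip of `b_j`: the other real parts stay on their side -/
def Tj (j : Fin 6) (b : Rd) : Set ℂ :=
  {x | (∀ l, l < j → (b l).re < x.re) ∧ ∀ l, j < l → x.re < (b l).re}

theorem isOpen_Tj (j : Fin 6) (b : Rd) : IsOpen (Tj j b) := by
  have h : Tj j b = (⋂ l : Fin 6, {x : ℂ | l < j → (b l).re < x.re}) ∩
      ⋂ l : Fin 6, {x : ℂ | j < l → x.re < (b l).re} := by
    ext x; simp [Tj]
  rw [h]
  refine (isOpen_iInter_of_finite fun l => ?_).inter (isOpen_iInter_of_finite fun l => ?_)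
  · by_cases hl : l < j
    · simpa [hl] using isOpen_lt continuous_const continuous_re
    · simp [hl]
  · by_cases hl : j < l
    · simpa [hl] using isOpen_lt continuous_re continuous_const
    · simp [hl]

theorem self_mem_Tj {b : Rd} (hb : b ∈ OR) (j : Fin 6) : b j ∈ Tj j b :=
  ⟨fun _ hl => hb hl, fun _ hl => hb hl⟩

theorem sub_mem_Sl {j l : Fin 6} {b : Rd} {x : ℂ} (hx : x ∈ Tj j b) (hl : l ≠ j) :
    x - b l ∈ Sl := by
  right
  rw [sub_re]
  rcases lt_or_gt_of_ne hl with h | h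
  · have := hx.1 l h; exact (sub_pos.2 this).ne'
  · have := hx.2 l h; exact (sub_neg.2 this).ne

theorem hj_ne_zero {j : Fin 6} {b : Rd} {x : ℂ} (hx : x ∈ Tj j b) : hj j b x ≠ 0 := by
  rw [hj, Finset.prod_ne_zero_iff]
  intro l hl
  exact rt_ne_zero (Sl_ne_zero (sub_mem_Sl hx (Finset.ne_of_mem_erase hl)))

theorem differentiableAt_hj {j : Fin 6} {b : Rd} {x : ℂ} (hx : x ∈ Tj j b) :
    DifferentiableAt ℂ (hj j b) x := by
  unfold hj
  refine DifferentiableAt.fun_finsetProd fun l hl => ?_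
  have h1 : DifferentiableAt ℂ (fun x : ℂ => x - b l) x := by fun_prop
  exact DifferentiableAt.comp (g := rt) (f := fun x : ℂ => x - b l) x
    (differentiableAt_rt (sub_mem_Sl hx (Finset.ne_of_mem_erase hl))) h1

/-- the points `(b,w)` with `b_j + w^2` in the strip of `b_j` -/
def St (j : Fin 6) : Set (Rd × ℂ) :=
  {p | (∀ l, l < j → (p.1 l).re < (p.1 j).re ∧ (p.1 l).re < (p.1 j + p.2 ^ 2).re) ∧
    ∀ l, j < l → (p.1 j).re < (p.1 l).re ∧ (p.1 j + p.2 ^ 2).re < (p.1 l).re}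

theorem isOpen_St (j : Fin 6) : IsOpen (St j) := by
  have h : St j = (⋂ l : Fin 6, {p : Rd × ℂ | l < j → (p.1 l).re < (p.1 j).re ∧
      (p.1 l).re < (p.1 j + p.2 ^ 2).re}) ∩
      ⋂ l : Fin 6, {p : Rd × ℂ | j < l → (p.1 j).re < (p.1 l).re ∧
        (p.1 j + p.2 ^ 2).re < (p.1 l).re} := by
    ext x; simp [St]
  rw [h]
  refine (isOpen_iInter_of_finite fun l => ?_).inter (isOpen_iInter_of_finite fun l => ?_)
  · by_cases hl : l < j
    · have : {p : Rd × ℂ | l < j → (p.1 l).re < (p.1 j).re ∧ (p.1 l).re < (p.1 j + p.2 ^ 2).re}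
          = {p | (p.1 l).re < (p.1 j).re} ∩ {p | (p.1 l).re < (p.1 j + p.2 ^ 2).re} := by
        ext; simp [hl]
      rw [this]
      exact (isOpen_lt (by fun_prop) (by fun_prop)).inter (isOpen_lt (by fun_prop) (by fun_prop))
    · simp [hl]
  · by_cases hl : j < l
    · have : {p : Rd × ℂ | j < l → (p.1 j).re < (p.1 l).re ∧ (p.1 j + p.2 ^ 2).re < (p.1 l).re}
          = {p | (p.1 j).re < (p.1 l).re} ∩ {p | (p.1 j + p.2 ^ 2).re < (p.1 l).re} := by
        ext; simp [hl]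
      rw [this]
      exact (isOpen_lt (by fun_prop) (by fun_prop)).inter (isOpen_lt (by fun_prop) (by fun_prop))
    · simp [hl]

theorem mem_St_iff {j : Fin 6} {b : Rd} (hb : b ∈ OR) {w : ℂ} :
    (b, w) ∈ St j ↔ b j + w ^ 2 ∈ Tj j b := by
  constructor
  · rintro ⟨h1, h2⟩
    exact ⟨fun l hl => (h1 l hl).2, fun l hl => (h2 l hl).2⟩
  · rintro ⟨h1, h2⟩
    exact ⟨fun l hl => ⟨hb hl, h1 l hl⟩, fun l hl => ⟨hb hl, h2 l hl⟩⟩

theorem St_seg {j : Fin 6} {b : Rd} {w : ℂ} (h : (b, w) ∈ St j) {t : ℝ}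
    (ht : t ∈ Icc (0 : ℝ) 1) : b j + ((t : ℂ) * w) ^ 2 ∈ Tj j b := by
  have e : (b j + ((t : ℂ) * w) ^ 2).re
      = (1 - t ^ 2) * (b j).re + t ^ 2 * (b j + w ^ 2).re := by
    have : ((t : ℂ) * w) ^ 2 = ((t ^ 2 : ℝ) : ℂ) * w ^ 2 := by push_cast; ring
    rw [this, add_re, re_ofReal_mul, add_re]
    ring
  have ht0 : 0 ≤ t ^ 2 := sq_nonneg t
  have ht1 : 0 ≤ 1 - t ^ 2 := by nlinarith [ht.1, ht.2]
  have key : ∀ u v c : ℝ, c < u → c < v → c < (1 - t ^ 2) * u + t ^ 2 * v := by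
    intro u v c hu hv
    rcases eq_or_lt_of_le ht0 with h0 | h0
    · rw [← h0]; linarith
    · nlinarith
  refine ⟨fun l hl => ?_, fun l hl => ?_⟩
  · rw [e]; exact key _ _ _ (h.1 l hl).1 (h.1 l hl).2
  · rw [e]
    have := key (-(b j).re) (-(b j + w ^ 2).re) (-(b l).re) (neg_lt_neg (h.2 l hl).1)
      (neg_lt_neg (h.2 l hl).2)
    linarith

/-- the integrand in the coordinate `w`, `x = b_j + w^2` -/
def ig (j : Fin 6) (k : ℕ) (b : Rd) (w : ℂ) : ℂ := 2 * (b j + w ^ 2) ^ k / hj j b (b j + w ^ 2)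

/-- **the primitive of `x^k dx / sq` from `b_j`**, in the coordinate `w = rt (x - b_j)` -/
def Hp (j : Fin 6) (k : ℕ) (b : Rd) (w : ℂ) : ℂ :=
  w * ∫ t in (0 : ℝ)..1, ig j k b (t * w)

theorem ig_neg (j : Fin 6) (k : ℕ) (b : Rd) (w : ℂ) : ig j k b (-w) = ig j k b w := by
  simp [ig]

theorem Hp_neg (j : Fin 6) (k : ℕ) (b : Rd) (w : ℂ) : Hp j k b (-w) = -Hp j k b w := by
  simp only [Hp, mul_neg, ig_neg, neg_mul]

@[simp] theorem Hp_zero (j : Fin 6) (k : ℕ) (b : Rd) : Hp j k b 0 = 0 := by simp [Hp]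

theorem hasDerivAt_Hp {j : Fin 6} {k : ℕ} {b : Rd} {w : ℂ} (h : (b, w) ∈ St j) :
    HasDerivAt (Hp j k b) (ig j k b w) w := by
  set W : Set ℂ := {w | (b, w) ∈ St j} with hW
  have hWo : IsOpen W := (isOpen_St j).preimage (by fun_prop : Continuous fun w : ℂ => (b, w))
  have hb : ∀ w ∈ W, ∀ t ∈ Icc (0 : ℝ) 1, (t : ℂ) * w ∈ W := by
    intro w hw t ht
    have h1 := St_seg hw ht
    refine ⟨fun l hl => ⟨(hw.1 l hl).1, h1.1 l hl⟩, fun l hl => ⟨(hw.2 l hl).1, h1.2 l hl⟩⟩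
  refine star_prim hWo hb ?_ h
  intro w hw
  have h1 : b j + w ^ 2 ∈ Tj j b := by
    have := St_seg hw (t := 1) ⟨zero_le_one, le_rfl⟩
    simpa using this
  have h2 : DifferentiableAt ℂ (fun w : ℂ => b j + w ^ 2) w := by fun_prop
  have h3 : DifferentiableAt ℂ (fun w : ℂ => hj j b (b j + w ^ 2)) w :=
    DifferentiableAt.comp (g := hj j b) (f := fun w : ℂ => b j + w ^ 2) w
      (differentiableAt_hj h1) h2
  have h4 : DifferentiableAt ℂ (fun w : ℂ => 2 * (b j + w ^ 2) ^ k) w := by fun_prop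
  exact (h4.div h3 (hj_ne_zero h1)).differentiableWithinAt

/-- smoothness of the primitive in all variables -/
theorem contDiffOn_Hp (j : Fin 6) (k : ℕ) :
    ContDiffOn ℝ ∞ (fun p : Rd × ℂ => Hp j k p.1 p.2) (St j) := by
  set W : Set ((Rd × ℂ) × ℝ) :=
    {q | ∀ l, l ≠ j → q.1.1 j + ((q.2 : ℂ) * q.1.2) ^ 2 - q.1.1 l ∈ Sl} with hW
  have hWo : IsOpen W := by
    have : W = ⋂ l : Fin 6, {q | l ≠ j → q.1.1 j + ((q.2 : ℂ) * q.1.2) ^ 2 - q.1.1 l ∈ Sl} := by
      ext; simp [hW]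
    rw [this]
    refine isOpen_iInter_of_finite fun l => ?_
    by_cases hl : l = j
    · simp [hl]
    · simp only [ne_eq, hl, not_false_eq_true, forall_const]
      exact isOpen_Sl.preimage (by fun_prop)
  have hsub : ∀ p ∈ St j, ∀ t ∈ Icc (0 : ℝ) 1, (p, t) ∈ W := by
    intro p hp t ht l hl
    exact sub_mem_Sl (St_seg (b := p.1) (w := p.2) hp ht) hl
  have hf : ContDiffOn ℝ ∞ (fun q : (Rd × ℂ) × ℝ => ig j k q.1.1 (q.2 * q.1.2)) W := by
    have h0 : ContDiff ℝ ∞ (fun q : (Rd × ℂ) × ℝ => ((q.2 : ℝ) : ℂ)) :=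
      Complex.ofRealCLM.contDiff.comp contDiff_snd
    have h1 : ContDiff ℝ ∞ (fun q : (Rd × ℂ) × ℝ => q.1.1 j + ((q.2 : ℂ) * q.1.2) ^ 2) := by
      have h2 : ContDiff ℝ ∞ (fun q : (Rd × ℂ) × ℝ => q.1.1 j) := by fun_prop
      have h3 : ContDiff ℝ ∞ (fun q : (Rd × ℂ) × ℝ => q.1.2) := by fun_prop
      exact h2.add ((h0.mul h3).pow 2)
    simp only [ig, div_eq_mul_inv]
    refine ContDiffOn.mul (contDiffOn_const.mul (h1.contDiffOn.pow k)) (ContDiffOn.inv ?_ ?_)
    · unfold hj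
      refine contDiffOn_prod fun l hl => ?_
      have h4 : ContDiffOn ℝ ∞
          (fun q : (Rd × ℂ) × ℝ => q.1.1 j + ((q.2 : ℂ) * q.1.2) ^ 2 - q.1.1 l) W := by
        have h2 : ContDiff ℝ ∞ (fun q : (Rd × ℂ) × ℝ => q.1.1 l) := by fun_prop
        exact (h1.sub h2).contDiffOn
      exact contDiffOn_rt_real.comp h4 fun q hq => hq l (Finset.ne_of_mem_erase hl)
    · intro q hq
      rw [hj, Finset.prod_ne_zero_iff]
      intro l hl
      exact rt_ne_zero (Sl_ne_zero (hq l (Finset.ne_of_mem_erase hl)))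
  have hI := P267.H734.contDiffOn_integral hWo (isOpen_St j) hsub hf
  exact contDiff_snd.contDiffOn.mul hI

end

end Vale.Agent.P273.H908
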